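import Vale.Agent.P347.Family

/-!
# P347 (T3): cutoff function bounds, second derivative along a line, smoothness
-/

namespace Vale.Agent.P347

variable {d : ℕ}

theorem smoothTransition_eventuallyEq_zero {x : ℝ} (hx : x < 0) :
    Real.smoothTransition =ᶠ[nhds x] fun _ => (0 : ℝ) := by
  filter_upwards [Iio_mem_nhds hx] with y hy
  exact Real.smoothTransition.zero_of_nonpos (le_of_lt hy)

theorem smoothTransition_eventuallyEq_one {x : ℝ} (hx : 1 < x) :
    Real.smoothTransition =ᶠ[nhds x] fun _ => (1 : ℝ) := by
  filter_upwards [Ioi_mem_nhds hx] with y hy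
  exact Real.smoothTransition.one_of_one_le (le_of_lt hy)

theorem deriv_smoothTransition_of_neg {x : ℝ} (hx : x < 0) :
    deriv Real.smoothTransition x = 0 := by
  rw [(smoothTransition_eventuallyEq_zero hx).deriv_eq]; simp

theorem deriv_smoothTransition_of_one_lt {x : ℝ} (hx : 1 < x) :
    deriv Real.smoothTransition x = 0 := by
  rw [(smoothTransition_eventuallyEq_one hx).deriv_eq]; simp

theorem deriv_deriv_smoothTransition_of_neg {x : ℝ} (hx : x < 0) :
    deriv (deriv Real.smoothTransition) x = 0 := by
  have h : deriv Real.smoothTransition =ᶠ[nhds x] fun _ => (0 : ℝ) := by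
    filter_upwards [Iio_mem_nhds hx] with y hy
    exact deriv_smoothTransition_of_neg hy
  rw [h.deriv_eq]; simp

theorem deriv_deriv_smoothTransition_of_one_lt {x : ℝ} (hx : 1 < x) :
    deriv (deriv Real.smoothTransition) x = 0 := by
  have h : deriv Real.smoothTransition =ᶠ[nhds x] fun _ => (0 : ℝ) := by
    filter_upwards [Ioi_mem_nhds hx] with y hy
    exact deriv_smoothTransition_of_one_lt hy
  rw [h.deriv_eq]; simp

theorem contDiff_deriv_smoothTransition : ContDiff ℝ 1 (deriv Real.smoothTransition) := by
  have h : ContDiff ℝ (1 + 1) Real.smoothTransition := Real.smoothTransition.contDiff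
  exact (contDiff_succ_iff_deriv.1 h).2.2

theorem continuous_deriv_smoothTransition : Continuous (deriv Real.smoothTransition) :=
  contDiff_deriv_smoothTransition.continuous

theorem continuous_deriv_deriv_smoothTransition :
    Continuous (deriv (deriv Real.smoothTransition)) :=
  contDiff_deriv_smoothTransition.continuous_deriv le_rfl

theorem differentiable_smoothTransition : Differentiable ℝ Real.smoothTransition :=
  (Real.smoothTransition.contDiff (n := 1)).differentiable (by simp)

theorem differentiable_deriv_smoothTransition : Differentiable ℝ (deriv Real.smoothTransition) :=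
  contDiff_deriv_smoothTransition.differentiable (by simp)

/-- (T3) the first two derivatives of `Real.smoothTransition` are bounded -/
theorem smoothTransition_deriv_bounds : ∃ M : ℝ, 0 ≤ M ∧ ∀ x : ℝ,
    |deriv Real.smoothTransition x| ≤ M ∧ |deriv (deriv Real.smoothTransition) x| ≤ M := by
  obtain ⟨M1, hM1⟩ := (isCompact_Icc (a := (0 : ℝ)) (b := 1)).exists_bound_of_continuousOn
    continuous_deriv_smoothTransition.continuousOn
  obtain ⟨M2, hM2⟩ := (isCompact_Icc (a := (0 : ℝ)) (b := 1)).exists_bound_of_continuousOn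
    continuous_deriv_deriv_smoothTransition.continuousOn
  refine ⟨max (max M1 M2) 0, le_max_right _ _, fun x => ?_⟩
  rcases lt_or_ge x 0 with hx | hx
  · rw [deriv_smoothTransition_of_neg hx, deriv_deriv_smoothTransition_of_neg hx]
    simp
  rcases lt_or_ge 1 x with hx1 | hx1
  · rw [deriv_smoothTransition_of_one_lt hx1, deriv_deriv_smoothTransition_of_one_lt hx1]
    simp
  · have h1 := hM1 x ⟨hx, hx1⟩
    have h2 := hM2 x ⟨hx, hx1⟩
    rw [Real.norm_eq_abs] at h1 h2
    exact ⟨h1.trans ((le_max_left _ _).trans (le_max_left _ _)),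
      h2.trans ((le_max_right _ _).trans (le_max_left _ _))⟩

/-- first derivative along a line -/
theorem hasDerivAt_line {V : E d → ℝ} (hV : ContDiff ℝ 2 V) (x v : E d) (t : ℝ) :
    HasDerivAt (fun t : ℝ => V (x + t • v)) (fderiv ℝ V (x + t • v) v) t := by
  have hd : DifferentiableAt ℝ V (x + t • v) := (hV.differentiable (by simp)).differentiableAt
  have hl : HasDerivAt (fun t : ℝ => x + t • v) v t := by
    simpa using ((hasDerivAt_id t).smul_const v).const_add x
  exact hd.hasFDerivAt.comp_hasDerivAt t hl

theorem deriv_line {V : E d → ℝ} (hV : ContDiff ℝ 2 V) (x v : E d) :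
    deriv (fun t : ℝ => V (x + t • v)) = fun t => fderiv ℝ V (x + t • v) v := by
  funext t
  exact (hasDerivAt_line hV x v t).deriv

/-- second derivative along a line, at every time -/
theorem hasDerivAt_line_two {V : E d → ℝ} (hV : ContDiff ℝ 2 V) (x v : E d) (t : ℝ) :
    HasDerivAt (fun t : ℝ => fderiv ℝ V (x + t • v) v)
      (fderiv ℝ (fderiv ℝ V) (x + t • v) v v) t := by
  have h1 : ContDiff ℝ 1 (fderiv ℝ V) := hV.fderiv_right (m := 1) (by norm_num)
  have hd : DifferentiableAt ℝ (fderiv ℝ V) (x + t • v) :=
    (h1.differentiable (by simp)).differentiableAt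
  have hl : HasDerivAt (fun t : ℝ => x + t • v) v t := by
    simpa using ((hasDerivAt_id t).smul_const v).const_add x
  have h2 : HasDerivAt (fun t : ℝ => fderiv ℝ V (x + t • v))
      (fderiv ℝ (fderiv ℝ V) (x + t • v) v) t := hd.hasFDerivAt.comp_hasDerivAt t hl
  exact h2.clm_apply (hasDerivAt_const t v) |>.congr_deriv (by simp)

/-- (T3) second derivative along a line -/
theorem fderiv_fderiv_eq_deriv_deriv {V : E d → ℝ} (hV : ContDiff ℝ 2 V) (x v : E d) :
    fderiv ℝ (fderiv ℝ V) x v v = deriv (deriv (fun t : ℝ => V (x + t • v))) 0 := by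
  rw [deriv_line hV x v, (hasDerivAt_line_two hV x v 0).deriv]
  simp

theorem contDiff_coord (i : Fin d) : ContDiff ℝ 2 (fun x : E d => x i) :=
  (EuclideanSpace.proj (𝕜 := ℝ) i).contDiff

theorem contDiff_sQ (σ : Fin d → Bool) : ContDiff ℝ 2 (sQ σ) := by
  unfold sQ
  exact ContDiff.sum fun i _ => contDiff_const.mul ((contDiff_coord i).pow 2)

theorem contDiff_tStat (σ : Fin d → Bool) : ContDiff ℝ 2 (tStat σ) := by
  unfold tStat
  exact ContDiff.sum fun i _ => contDiff_const.mul
    ((Real.contDiff_exp.comp ((contDiff_coord i).pow 2).neg).sub contDiff_const)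

theorem contDiff_cut (σ : Fin d → Bool) : ContDiff ℝ 2 (cut σ) := by
  unfold cut
  refine ContDiff.mul ?_ ?_
  · exact Real.smoothTransition.contDiff.comp
      (((contDiff_const.mul (contDiff_tStat σ)).div_const _).sub contDiff_const)
  · exact Real.smoothTransition.contDiff.comp
      (contDiff_const.sub ((ContDiff.sum fun i _ => (contDiff_coord i).pow 2).div_const _))

end Vale.Agent.P347
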