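import Mathlib

/-!
# P347: the model (class of potentials, Gibbs law, non-adaptive first-order algorithms)
-/

namespace Vale.Agent.P347

open MeasureTheory

/-- The Euclidean space `ℝ^d`. -/
abbrev E (d : ℕ) : Type := EuclideanSpace ℝ (Fin d)

/-- The Hessian quadratic form `D²V(x)[v, v]` (second Fréchet derivative evaluated at `(v, v)`). -/
noncomputable def hessQ {d : ℕ} (V : E d → ℝ) (x v : E d) : ℝ := iteratedFDeriv ℝ 2 V x ![v, v]

theorem hessQ_eq {d : ℕ} (V : E d → ℝ) (x v : E d) :
    hessQ V x v = fderiv ℝ (fderiv ℝ V) x v v := by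
  simp [hessQ, iteratedFDeriv_two_apply]

/-- The class `𝒱_d`: `V` is `C^2`, `V 0 = 0`, `∇V 0 = 0` and `I ≤ ∇²V(x) ≤ 2 I` for all `x`
(the Hessian quadratic form `D²V(x)[v, v]` lies between `‖v‖²` and `2 ‖v‖²`). -/
structure InClass {d : ℕ} (V : E d → ℝ) : Prop where
  contDiff : ContDiff ℝ 2 V
  map_zero : V 0 = 0
  grad_zero : gradient V 0 = 0
  hess_ge : ∀ x v : E d, ‖v‖ ^ 2 ≤ hessQ V x v
  hess_le : ∀ x v : E d, hessQ V x v ≤ 2 * ‖v‖ ^ 2

/-- The Gibbs law `π_V(dx) = Z_V⁻¹ exp(-V x) dx`. -/
noncomputable def gibbs {d : ℕ} (V : E d → ℝ) : Measure (E d) :=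
  (∫⁻ x, ENNReal.ofReal (Real.exp (-V x)))⁻¹ •
    (volume : Measure (E d)).withDensity (fun x => ENNReal.ofReal (Real.exp (-V x)))

/-- A non-adaptive randomized first-order algorithm with `q` queries in dimension `d`:
a probability space `(Ω, P)` of internal randomness, `q` measurable query points `pts ω j` which do
not depend on the oracle's answers, and a measurable output rule `out` which sees the internal
randomness and the `q` answers `(V x_j, ∇V x_j)`. -/
structure NonadaptiveAlg (d q : ℕ) where
  Ω : Type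
  mΩ : MeasurableSpace Ω
  P : Measure Ω
  prob : IsProbabilityMeasure P
  pts : Ω → Fin q → E d
  pts_meas : Measurable pts
  out : Ω × (Fin q → ℝ × E d) → E d
  out_meas : Measurable out

attribute [instance] NonadaptiveAlg.mΩ NonadaptiveAlg.prob

/-- The output of the algorithm run on the potential `V` with internal randomness `ω`. -/
noncomputable def NonadaptiveAlg.run {d q : ℕ} (A : NonadaptiveAlg d q) (V : E d → ℝ) (ω : A.Ω) :
    E d :=
  A.out (ω, fun j => (V (A.pts ω j), gradient V (A.pts ω j)))

/-- The law of the output of the algorithm run on the potential `V`. -/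
noncomputable def NonadaptiveAlg.law {d q : ℕ} (A : NonadaptiveAlg d q) (V : E d → ℝ) :
    Measure (E d) :=
  A.P.map (A.run V)

/-- The algorithm succeeds: for every `V` in the class the total variation distance
`sup_B |law(B) - π_V(B)|` between the law of the output and the Gibbs law is at most `1/10`. -/
def NonadaptiveAlg.Succeeds {d q : ℕ} (A : NonadaptiveAlg d q) : Prop :=
  ∀ V : E d → ℝ, InClass V → ∀ B : Set (E d), MeasurableSet B →
    |(A.law V B).toReal - (gibbs V B).toReal| ≤ 1 / 10

end Vale.Agent.P347
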