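import Vale.Agent.P347.Defs

/-!
# P347: the hard family of potentials for non-adaptive algorithms

For `σ : Fin d → Bool` the base potential is the diagonal quadratic form `(1/2 + lam) * sQ σ x`, and
the perturbed potential equals `(1/2) * sQ σ x` on a macroscopic neighbourhood (`cut σ = 1`) of the
typical set of the Gaussian with potential `(1/2) * sQ σ`, and equals the base potential wherever
`cut σ = 0`, in particular wherever `tStat σ x < d / 96`.
-/

namespace Vale.Agent.P347

/-- the two possible diagonal coefficients -/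
noncomputable def aCoef (b : Bool) : ℝ := if b then 8 / 5 else 50 / 39

/-- the sign attached to a bit -/
noncomputable def sgn (b : Bool) : ℝ := if b then 1 else -1

/-- the quadratic form `∑ a_i x_i²` -/
noncomputable def sQ {d : ℕ} (σ : Fin d → Bool) (x : E d) : ℝ := ∑ i, aCoef (σ i) * x i ^ 2

/-- the hidden bounded statistic `∑ ε_i (exp(-x_i²) - 31/48)` -/
noncomputable def tStat {d : ℕ} (σ : Fin d → Bool) (x : E d) : ℝ :=
  ∑ i, sgn (σ i) * (Real.exp (-(x i) ^ 2) - 31 / 48)

/-- the test statistic `∑ exp(-(3/2) a_i x_i²)` -/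
noncomputable def uStat {d : ℕ} (σ : Fin d → Bool) (x : E d) : ℝ :=
  ∑ i, Real.exp (-(3 / 2 * aCoef (σ i) * x i ^ 2))

/-- the macroscopic cutoff -/
noncomputable def cut {d : ℕ} (σ : Fin d → Bool) (x : E d) : ℝ :=
  Real.smoothTransition (192 * tStat σ x / d - 2) *
    Real.smoothTransition (2 - (∑ i, x i ^ 2) / (100 * d))

/-- the base potential -/
noncomputable def V0 {d : ℕ} (lam : ℝ) (σ : Fin d → Bool) (x : E d) : ℝ := (1 / 2 + lam) * sQ σ x

/-- the perturbed potential -/
noncomputable def V1 {d : ℕ} (lam : ℝ) (σ : Fin d → Bool) (x : E d) : ℝ :=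
  (1 / 2 + lam) * sQ σ x - lam * (sQ σ x * cut σ x)

/-- diagonal quadratic potential `(1/2) ∑ b_i x_i²` -/
noncomputable def quadPot {d : ℕ} (b : Fin d → ℝ) (x : E d) : ℝ := (1 / 2) * ∑ i, b i * x i ^ 2

end Vale.Agent.P347
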