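import Vale.Agent.P347.Family

/-!
# P347 (T2): the Gibbs law of a diagonal quadratic potential is a product of Gaussians
-/

namespace Vale.Agent.P347

open MeasureTheory ProbabilityTheory

variable {d : ℕ}

theorem pi_withDensity_ofReal {ι : Type*} [Fintype ι] (g : ι → ℝ → ℝ) (hg0 : ∀ i y, 0 ≤ g i y)
    (hgi : ∀ i, Integrable (g i) volume) :
    Measure.pi (fun i => (volume : Measure ℝ).withDensity (fun y => ENNReal.ofReal (g i y))) =
      (volume : Measure (ι → ℝ)).withDensity (fun x => ENNReal.ofReal (∏ i, g i (x i))) := by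
  classical
  have hfin : ∀ i, IsFiniteMeasure
      ((volume : Measure ℝ).withDensity (fun y => ENNReal.ofReal (g i y))) := by
    intro i
    exact isFiniteMeasure_withDensity_ofReal (hgi i).2
  apply Measure.pi_eq
  intro s hs
  have hms : MeasurableSet (Set.pi Set.univ s) := MeasurableSet.univ_pi hs
  rw [withDensity_apply _ hms]
  have h1 : ∀ i, ((volume : Measure ℝ).withDensity (fun y => ENNReal.ofReal (g i y))) (s i)
      = ENNReal.ofReal (∫ y, (s i).indicator (g i) y) := by
    intro i
    rw [withDensity_apply _ (hs i), integral_indicator (hs i),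
      ofReal_integral_eq_lintegral_ofReal (hgi i).integrableOn
        (Filter.Eventually.of_forall (fun y => hg0 i y))]
  simp_rw [h1]
  rw [← ENNReal.ofReal_prod_of_nonneg
    (fun i _ => integral_nonneg (fun y => Set.indicator_nonneg (fun y _ => hg0 i y) y)),
    ← integral_fintype_prod_volume_eq_prod (fun i y => (s i).indicator (g i) y)]
  have h2 : (fun x : ι → ℝ => ∏ i, (s i).indicator (g i) (x i))
      = (Set.pi Set.univ s).indicator (fun x => ∏ i, g i (x i)) := by
    funext x
    by_cases hx : x ∈ Set.pi Set.univ s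
    · rw [Set.indicator_of_mem hx]
      refine Finset.prod_congr rfl (fun i _ => ?_)
      rw [Set.indicator_of_mem (hx i (Set.mem_univ i))]
    · rw [Set.indicator_of_notMem hx]
      simp only [Set.mem_pi, Set.mem_univ, true_implies, not_forall] at hx
      obtain ⟨i, hi⟩ := hx
      exact Finset.prod_eq_zero (Finset.mem_univ i) (Set.indicator_of_notMem hi _)
  have hint : Integrable (fun x : ι → ℝ => ∏ i, g i (x i)) volume := Integrable.fintype_prod hgi
  rw [h2, integral_indicator hms,
    ofReal_integral_eq_lintegral_ofReal hint.integrableOn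
      (Filter.Eventually.of_forall (fun x => Finset.prod_nonneg (fun i _ => hg0 i (x i))))]

theorem measurable_quadPot (b : Fin d → ℝ) : Measurable (quadPot b : E d → ℝ) := by
  unfold quadPot
  fun_prop

/-- the normalising constant of the product Gaussian density -/
noncomputable def gConst (b : Fin d → ℝ) : ℝ :=
  ∏ i, (Real.sqrt (2 * Real.pi * (Real.toNNReal (1 / b i) : ℝ)))⁻¹

theorem gConst_pos (b : Fin d → ℝ) (hb : ∀ i, 0 < b i) : 0 < gConst b := by
  unfold gConst
  refine Finset.prod_pos (fun i _ => ?_)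
  have : 0 < 1 / b i := by have := hb i; positivity
  rw [Real.coe_toNNReal _ this.le]
  positivity

theorem prod_gaussianPDFReal (b : Fin d → ℝ) (hb : ∀ i, 0 < b i) (x : Fin d → ℝ) :
    ∏ i, gaussianPDFReal 0 (Real.toNNReal (1 / b i)) (x i)
      = gConst b * Real.exp (-quadPot b (WithLp.toLp 2 x)) := by
  unfold gConst quadPot gaussianPDFReal
  rw [Finset.prod_mul_distrib, ← Real.exp_sum]
  congr 2
  rw [Finset.mul_sum, ← Finset.sum_neg_distrib]
  refine Finset.sum_congr rfl (fun i _ => ?_)
  have h : 0 < 1 / b i := by have := hb i; positivity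
  rw [Real.coe_toNNReal _ h.le]
  have := (hb i).ne'
  field_simp
  ring

theorem pi_gaussian_map_eq (b : Fin d → ℝ) (hb : ∀ i, 0 < b i) :
    (Measure.pi fun i => gaussianReal 0 (Real.toNNReal (1 / b i))).map (WithLp.toLp 2) =
      ENNReal.ofReal (gConst b) • (volume : Measure (E d)).withDensity
        (fun x => ENNReal.ofReal (Real.exp (-quadPot b x))) := by
  have hv : ∀ i, Real.toNNReal (1 / b i) ≠ 0 := by
    intro i
    have : 0 < 1 / b i := by have := hb i; positivity
    simpa using this
  have h1 : (fun i => gaussianReal 0 (Real.toNNReal (1 / b i))) = fun i =>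
      (volume : Measure ℝ).withDensity
        (fun y => ENNReal.ofReal (gaussianPDFReal 0 (Real.toNNReal (1 / b i)) y)) := by
    funext i
    rw [gaussianReal_of_var_ne_zero _ (hv i)]
    rfl
  rw [h1, pi_withDensity_ofReal (fun i y => gaussianPDFReal 0 (Real.toNNReal (1 / b i)) y)
    (fun i y => gaussianPDFReal_nonneg _ _ _) (fun i => integrable_gaussianPDFReal _ _)]
  have hmeas : Measurable (fun x : E d => ENNReal.ofReal (Real.exp (-quadPot b x))) :=
    ((measurable_quadPot b).neg.exp).ennreal_ofReal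
  ext B hB
  have hmp := PiLp.volume_preserving_toLp (Fin d)
  rw [Measure.map_apply hmp.measurable hB, withDensity_apply _ (hmp.measurable hB),
    Measure.smul_apply, withDensity_apply _ hB, smul_eq_mul,
    ← hmp.setLIntegral_comp_preimage hB hmeas, ← lintegral_const_mul' _ _ ENNReal.ofReal_ne_top]
  refine lintegral_congr (fun x => ?_)
  rw [prod_gaussianPDFReal b hb, ENNReal.ofReal_mul (gConst_pos b hb).le]

theorem gConst_mul_lintegral (b : Fin d → ℝ) (hb : ∀ i, 0 < b i) :
    ENNReal.ofReal (gConst b) * ∫⁻ x : E d, ENNReal.ofReal (Real.exp (-quadPot b x)) = 1 := by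
  have hmp := PiLp.volume_preserving_toLp (Fin d)
  have hprob : IsProbabilityMeasure
      ((Measure.pi fun i => gaussianReal 0 (Real.toNNReal (1 / b i))).map
        (WithLp.toLp 2 : (Fin d → ℝ) → E d)) :=
    Measure.isProbabilityMeasure_map hmp.measurable.aemeasurable
  have h := hprob.measure_univ
  rw [pi_gaussian_map_eq b hb, Measure.smul_apply, withDensity_apply _ MeasurableSet.univ,
    Measure.restrict_univ, smul_eq_mul] at h
  exact h

/-- the normalising constant is finite -/
theorem lintegral_exp_neg_quadPot_ne_top (b : Fin d → ℝ) (hb : ∀ i, 0 < b i) :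
    ∫⁻ x : E d, ENNReal.ofReal (Real.exp (-quadPot b x)) ≠ ⊤ := by
  intro htop
  have h := gConst_mul_lintegral b hb
  rw [htop, ENNReal.mul_top (by simpa using gConst_pos b hb)] at h
  exact ENNReal.top_ne_one h

/-- The Gibbs law of `(1/2) ∑ b_i x_i²` is the product of the centred Gaussians of variance
`1 / b_i` (transported to `EuclideanSpace`). -/
theorem gibbs_quadPot_eq (b : Fin d → ℝ) (hb : ∀ i, 0 < b i) :
    gibbs (quadPot b) =
      (Measure.pi fun i => gaussianReal 0 (Real.toNNReal (1 / b i))).map (WithLp.toLp 2) := by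
  rw [pi_gaussian_map_eq b hb, gibbs]
  congr 1
  exact (ENNReal.eq_inv_of_mul_eq_one_left (gConst_mul_lintegral b hb)).symm

/-- Chebyshev's inequality for additive bounded statistics under the Gibbs law of a diagonal
quadratic potential. -/
theorem gibbs_quadPot_chebyshev (b : Fin d → ℝ) (hb : ∀ i, 0 < b i) (h : Fin d → ℝ → ℝ)
    (hm : ∀ i, Measurable (h i)) (hbd : ∀ i y, |h i y| ≤ 1) (t : ℝ) (ht : 0 < t) :
    (gibbs (quadPot b) {x : E d | t ≤ |∑ i, (h i (x i) -
      ∫ y, h i y ∂gaussianReal 0 (Real.toNNReal (1 / b i)))|}).toReal ≤ d / t ^ 2 := by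
  set γ : Fin d → Measure ℝ := fun i => gaussianReal 0 (Real.toNNReal (1 / b i)) with hγ
  have hmp := PiLp.volume_preserving_toLp (Fin d)
  have hset : MeasurableSet {x : E d | t ≤ |∑ i, (h i (x i) - ∫ y, h i y ∂γ i)|} := by
    apply measurableSet_le measurable_const
    apply Measurable.abs
    apply Finset.measurable_sum
    intro i _
    apply Measurable.sub_const
    exact (hm i).comp (by fun_prop)
  rw [gibbs_quadPot_eq b hb, Measure.map_apply hmp.measurable hset]
  have hLp : ∀ i, MemLp (h i) 2 (γ i) := by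
    intro i
    exact memLp_of_bounded (a := -1) (b := 1)
      (Filter.Eventually.of_forall (fun y => abs_le.mp (hbd i y))) (hm i).aestronglyMeasurable 2
  have hvar : Var[∑ i, fun ω : Fin d → ℝ => h i (ω i); Measure.pi γ] ≤ d := by
    rw [variance_sum_pi hLp]
    calc ∑ i, Var[h i; γ i] ≤ ∑ _i : Fin d, (1 : ℝ) := by
          refine Finset.sum_le_sum (fun i _ => ?_)
          have := variance_le_sq_of_bounded (μ := γ i) (a := -1) (b := 1) (X := h i)
            (Filter.Eventually.of_forall (fun y => abs_le.mp (hbd i y))) (hm i).aemeasurable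
          norm_num at this
          exact this
      _ = d := by simp
  have hLpS : MemLp (∑ i, fun ω : Fin d → ℝ => h i (ω i)) 2 (Measure.pi γ) := by
    apply memLp_finsetSum'
    intro i _
    exact (hLp i).comp_measurePreserving (measurePreserving_eval _ i)
  have hmean : ∫ ω, (∑ i, fun ω : Fin d → ℝ => h i (ω i)) ω ∂(Measure.pi γ)
      = ∑ i, ∫ y, h i y ∂γ i := by
    simp only [Finset.sum_apply]
    rw [integral_finsetSum]
    · refine Finset.sum_congr rfl (fun i _ => ?_)
      have hme := measurePreserving_eval γ i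
      rw [← hme.map_eq, integral_map hme.measurable.aemeasurable
        (hm i).aestronglyMeasurable]
    · intro i _
      exact ((hLp i).comp_measurePreserving (measurePreserving_eval _ i)).integrable (by norm_num)
  have hcheb := meas_ge_le_variance_div_sq hLpS ht
  rw [hmean] at hcheb
  have hseteq : (WithLp.toLp 2 : (Fin d → ℝ) → E d) ⁻¹'
      {x : E d | t ≤ |∑ i, (h i (x i) - ∫ y, h i y ∂γ i)|}
      = {ω | t ≤ |(∑ i, fun ω : Fin d → ℝ => h i (ω i)) ω - ∑ i, ∫ y, h i y ∂γ i|} := by
    ext ω
    simp [Finset.sum_sub_distrib]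
  rw [hseteq]
  calc ((Measure.pi γ) {ω | t ≤ |(∑ i, fun ω : Fin d → ℝ => h i (ω i)) ω
          - ∑ i, ∫ y, h i y ∂γ i|}).toReal
      ≤ (ENNReal.ofReal (Var[∑ i, fun ω : Fin d → ℝ => h i (ω i); Measure.pi γ] / t ^ 2)).toReal :=
        ENNReal.toReal_mono ENNReal.ofReal_ne_top hcheb
    _ = Var[∑ i, fun ω : Fin d → ℝ => h i (ω i); Measure.pi γ] / t ^ 2 :=
        ENNReal.toReal_ofReal (div_nonneg (variance_nonneg _ _) (by positivity))
    _ ≤ d / t ^ 2 := by gcongr

theorem integral_sq_gaussianReal (v : NNReal) : ∫ y, y ^ 2 ∂gaussianReal 0 v = v := by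
  have h1 := variance_eq_sub (μ := gaussianReal 0 v) (X := id) (memLp_id_gaussianReal 2)
  rw [variance_id_gaussianReal] at h1
  have h2 : ∫ y, id y ∂gaussianReal 0 v = 0 := integral_id_gaussianReal
  rw [h2] at h1
  simp only [Pi.pow_apply, id_eq] at h1
  linarith

/-- Markov's inequality for the squared norm. -/
theorem gibbs_quadPot_norm (b : Fin d → ℝ) (hb : ∀ i, 0 < b i) (R : ℝ) (hR : 0 < R) :
    (gibbs (quadPot b) {x : E d | R ≤ ∑ i, x i ^ 2}).toReal ≤ (∑ i, 1 / b i) / R := by
  set γ : Fin d → Measure ℝ := fun i => gaussianReal 0 (Real.toNNReal (1 / b i)) with hγ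
  have hmp := PiLp.volume_preserving_toLp (Fin d)
  have hset : MeasurableSet {x : E d | R ≤ ∑ i, x i ^ 2} := by
    apply measurableSet_le measurable_const
    fun_prop
  rw [gibbs_quadPot_eq b hb, Measure.map_apply hmp.measurable hset]
  have hint : ∀ i, Integrable (fun ω : Fin d → ℝ => ω i ^ 2) (Measure.pi γ) := by
    intro i
    have h2 : MemLp (fun ω : Fin d → ℝ => ω i) 2 (Measure.pi γ) :=
      (memLp_id_gaussianReal (μ := 0) (v := Real.toNNReal (1 / b i)) 2).comp_measurePreserving
        (measurePreserving_eval γ i)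
    exact h2.integrable_sq
  have hmean : ∫ ω : Fin d → ℝ, ∑ i, ω i ^ 2 ∂(Measure.pi γ) = ∑ i, 1 / b i := by
    rw [integral_finsetSum _ (fun i _ => hint i)]
    refine Finset.sum_congr rfl (fun i _ => ?_)
    have hme := measurePreserving_eval γ i
    have h3 : ∫ y, y ^ 2 ∂γ i = 1 / b i := by
      rw [hγ, integral_sq_gaussianReal, Real.coe_toNNReal]
      have := hb i
      positivity
    rw [← h3, ← hme.map_eq, integral_map hme.measurable.aemeasurable (by fun_prop)]
  have hmk := mul_meas_ge_le_integral_of_nonneg (μ := Measure.pi γ)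
    (f := fun ω : Fin d → ℝ => ∑ i, ω i ^ 2)
    (Filter.Eventually.of_forall (fun ω => Finset.sum_nonneg (fun i _ => sq_nonneg _)))
    (integrable_finsetSum _ (fun i _ => hint i)) R
  rw [hmean] at hmk
  rw [le_div_iff₀ hR, mul_comm]
  exact hmk

/-- The Gaussian integral `E exp(-β y²) = (1 + 2 β v)^(-1/2)` for `y ~ N(0, v)`. -/
theorem integral_exp_neg_mul_sq_gaussianReal (β v : ℝ) (hβ : 0 ≤ β) (hv : 0 < v) :
    ∫ y, Real.exp (-(β * y ^ 2)) ∂gaussianReal 0 (Real.toNNReal v)
      = 1 / Real.sqrt (1 + 2 * β * v) := by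
  have hv' : Real.toNNReal v ≠ 0 := by simpa using hv
  rw [integral_gaussianReal_eq_integral_smul hv']
  have h1 : ∀ x : ℝ, gaussianPDFReal 0 (Real.toNNReal v) x • Real.exp (-(β * x ^ 2))
      = (Real.sqrt (2 * Real.pi * v))⁻¹ * Real.exp (-(1 / (2 * v) + β) * x ^ 2) := by
    intro x
    rw [gaussianPDFReal, Real.coe_toNNReal _ hv.le, smul_eq_mul, mul_assoc, ← Real.exp_add]
    congr 2
    field_simp
    ring
  simp_rw [h1]
  rw [integral_const_mul, integral_gaussian]
  have h2 : Real.pi / (1 / (2 * v) + β) = (2 * Real.pi * v) / (1 + 2 * β * v) := by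
    field_simp
  rw [h2, Real.sqrt_div (by positivity)]
  have h3 : 0 < Real.sqrt (2 * Real.pi * v) := by positivity
  field_simp

end Vale.Agent.P347
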