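import Vale.Agent.P347.Family

/-!
# P347 (T4, part 2): the arithmetic behind the Hessian bound
-/

namespace Vale.Agent.P347

theorem abs_mul_le_mul {a b A B : ℝ} (ha : |a| ≤ A) (hb : |b| ≤ B) : |a * b| ≤ A * B := by
  rw [abs_mul]
  exact mul_le_mul ha hb (abs_nonneg _) (le_trans (abs_nonneg _) ha)

/-- the constant of the Hessian bound, in terms of a bound `M` for the first two derivatives of the
smooth transition function -/
noncomputable def hessK (M : ℝ) : ℝ :=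
  16 / 5 + (2 * 9216 + 2 * (64 / 5) + 320 * 36864 + 320 * 384 + 128 / 5 + 32 / 5) * M
    + 2 * 17408 * M ^ 2

theorem hessK_nonneg {M : ℝ} (hM : 0 ≤ M) : 0 ≤ hessK M := by
  unfold hessK
  positivity

theorem arith_bound (M D u s0 s1 s2 p1 p2 r1 r2 P P1 P2 R R1 R2 : ℝ)
    (hD : 0 < D) (hu : 0 ≤ u)
    (hs0 : 0 ≤ s0) (hs0' : s0 ≤ 320 * D) (hs1 : s1 ^ 2 ≤ 2048 * D * (D * u))
    (hs2 : |s2| ≤ 16 / 5 * (D * u)) (hp1 : p1 ^ 2 ≤ 36864 * u) (hp2 : |p2| ≤ 384 * u)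
    (hr1 : r1 ^ 2 ≤ 2 / 25 * u) (hr2 : |r2| ≤ 1 / 50 * u)
    (hP : |P| ≤ 1) (hP1 : |P1| ≤ M) (hP2 : |P2| ≤ M)
    (hR : |R| ≤ 1) (hR1 : |R1| ≤ M) (hR2 : |R2| ≤ M) :
    |s2 * (P * R) + 2 * s1 * (P1 * p1 * R + P * (R1 * r1))
      + s0 * ((P2 * p1 ^ 2 + P1 * p2) * R + 2 * (P1 * p1) * (R1 * r1)
        + P * (R2 * r1 ^ 2 + R1 * r2))| ≤ hessK M * (D * u) := by
  have hn : 0 ≤ D * u := mul_nonneg hD.le hu
  have hs0a : |s0| ≤ 320 * D := by rwa [abs_of_nonneg hs0]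
  -- atoms
  have a2 : |s1 * p1| ≤ 9216 * (D * u) := by
    apply abs_le_of_sq_le_sq _ (by positivity)
    have h := mul_le_mul hs1 hp1 (sq_nonneg _) (by positivity)
    calc (s1 * p1) ^ 2 = s1 ^ 2 * p1 ^ 2 := by ring
      _ ≤ 2048 * D * (D * u) * (36864 * u) := h
      _ = 75497472 * (D * u) ^ 2 := by ring
      _ ≤ (9216 * (D * u)) ^ 2 := by nlinarith [sq_nonneg (D * u)]
  have a3 : |s1 * r1| ≤ 64 / 5 * (D * u) := by
    apply abs_le_of_sq_le_sq _ (by positivity)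
    have h := mul_le_mul hs1 hr1 (sq_nonneg _) (by positivity)
    calc (s1 * r1) ^ 2 = s1 ^ 2 * r1 ^ 2 := by ring
      _ ≤ 2048 * D * (D * u) * (2 / 25 * u) := h
      _ = (64 / 5 * (D * u)) ^ 2 := by ring
  have a4 : |s0 * p1 ^ 2| ≤ 320 * 36864 * (D * u) := by
    have h := abs_mul_le_mul hs0a (by rwa [abs_of_nonneg (sq_nonneg p1)] : |p1 ^ 2| ≤ 36864 * u)
    calc _ ≤ _ := h
      _ = _ := by ring
  have a5 : |s0 * p2| ≤ 320 * 384 * (D * u) := by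
    have h := abs_mul_le_mul hs0a hp2
    calc _ ≤ _ := h
      _ = _ := by ring
  have a6' : |p1 * r1| ≤ 272 / 5 * u := by
    apply abs_le_of_sq_le_sq _ (by positivity)
    have h := mul_le_mul hp1 hr1 (sq_nonneg _) (by positivity)
    calc (p1 * r1) ^ 2 = p1 ^ 2 * r1 ^ 2 := by ring
      _ ≤ 36864 * u * (2 / 25 * u) := h
      _ ≤ (272 / 5 * u) ^ 2 := by nlinarith [sq_nonneg u]
  have a6 : |s0 * (p1 * r1)| ≤ 17408 * (D * u) := by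
    have h := abs_mul_le_mul hs0a a6'
    calc _ ≤ _ := h
      _ = _ := by ring
  have a7 : |s0 * r1 ^ 2| ≤ 128 / 5 * (D * u) := by
    have h := abs_mul_le_mul hs0a (by rwa [abs_of_nonneg (sq_nonneg r1)] : |r1 ^ 2| ≤ 2 / 25 * u)
    calc _ ≤ _ := h
      _ = _ := by ring
  have a8 : |s0 * r2| ≤ 32 / 5 * (D * u) := by
    have h := abs_mul_le_mul hs0a hr2
    calc _ ≤ _ := h
      _ = _ := by ring
  -- terms
  have t1 := abs_le.mp (abs_mul_le_mul hs2 (abs_mul_le_mul hP hR))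
  have t2 := abs_le.mp (abs_mul_le_mul a2 (abs_mul_le_mul hP1 hR))
  have t3 := abs_le.mp (abs_mul_le_mul a3 (abs_mul_le_mul hP hR1))
  have t4 := abs_le.mp (abs_mul_le_mul a4 (abs_mul_le_mul hP2 hR))
  have t5 := abs_le.mp (abs_mul_le_mul a5 (abs_mul_le_mul hP1 hR))
  have t6 := abs_le.mp (abs_mul_le_mul a6 (abs_mul_le_mul hP1 hR1))
  have t7 := abs_le.mp (abs_mul_le_mul a7 (abs_mul_le_mul hP hR2))
  have t8 := abs_le.mp (abs_mul_le_mul a8 (abs_mul_le_mul hP hR1))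
  have key : s2 * (P * R) + 2 * s1 * (P1 * p1 * R + P * (R1 * r1))
      + s0 * ((P2 * p1 ^ 2 + P1 * p2) * R + 2 * (P1 * p1) * (R1 * r1)
        + P * (R2 * r1 ^ 2 + R1 * r2))
      = s2 * (P * R) + 2 * (s1 * p1 * (P1 * R)) + 2 * (s1 * r1 * (P * R1))
        + s0 * p1 ^ 2 * (P2 * R) + s0 * p2 * (P1 * R) + 2 * (s0 * (p1 * r1) * (P1 * R1))
        + s0 * r1 ^ 2 * (P * R2) + s0 * r2 * (P * R1) := by ring
  rw [key, abs_le]
  unfold hessK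
  constructor
  · linarith [t1.1, t2.1, t3.1, t4.1, t5.1, t6.1, t7.1, t8.1]
  · linarith [t1.2, t2.2, t3.2, t4.2, t5.2, t6.2, t7.2, t8.2]

/-! ### elementary one-variable bounds -/

theorem two_mul_exp_neg_sq_sq_le (y : ℝ) : (2 * y * Real.exp (-y ^ 2)) ^ 2 ≤ 1 := by
  have h1 : 1 + y ^ 2 ≤ Real.exp (y ^ 2) := by
    have := Real.add_one_le_exp (y ^ 2)
    linarith
  have h2 : Real.exp (-y ^ 2) * Real.exp (y ^ 2) = 1 := by
    rw [← Real.exp_add]; simp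
  have hpos := Real.exp_pos (-y ^ 2)
  have h3 : Real.exp (-y ^ 2) * (1 + y ^ 2) ≤ 1 := by
    calc Real.exp (-y ^ 2) * (1 + y ^ 2) ≤ Real.exp (-y ^ 2) * Real.exp (y ^ 2) :=
          mul_le_mul_of_nonneg_left h1 hpos.le
      _ = 1 := h2
  have h4 : (2 * y) ^ 2 ≤ (1 + y ^ 2) ^ 2 := by nlinarith [sq_nonneg (y ^ 2 - 1)]
  have h5 : 0 ≤ Real.exp (-y ^ 2) * (1 + y ^ 2) := by positivity
  calc (2 * y * Real.exp (-y ^ 2)) ^ 2 = (2 * y) ^ 2 * Real.exp (-y ^ 2) ^ 2 := by ring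
    _ ≤ (1 + y ^ 2) ^ 2 * Real.exp (-y ^ 2) ^ 2 :=
        mul_le_mul_of_nonneg_right h4 (sq_nonneg _)
    _ = (Real.exp (-y ^ 2) * (1 + y ^ 2)) ^ 2 := by ring
    _ ≤ 1 := by nlinarith

theorem abs_four_sq_sub_two_mul_exp_le (y : ℝ) : |(4 * y ^ 2 - 2) * Real.exp (-y ^ 2)| ≤ 2 := by
  have h1 : 1 + y ^ 2 + (y ^ 2) ^ 2 / 2 ≤ Real.exp (y ^ 2) :=
    Real.quadratic_le_exp_of_nonneg (sq_nonneg y)
  have h2 : Real.exp (-y ^ 2) * Real.exp (y ^ 2) = 1 := by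
    rw [← Real.exp_add]; simp
  have hpos := Real.exp_pos (-y ^ 2)
  have h3 : |4 * y ^ 2 - 2| ≤ 2 * Real.exp (y ^ 2) := by
    rw [abs_le]
    constructor
    · nlinarith [sq_nonneg y, sq_nonneg (y ^ 2)]
    · nlinarith [sq_nonneg (y ^ 2 - 1)]
  rw [abs_mul, abs_of_pos hpos]
  calc |4 * y ^ 2 - 2| * Real.exp (-y ^ 2) ≤ 2 * Real.exp (y ^ 2) * Real.exp (-y ^ 2) :=
        mul_le_mul_of_nonneg_right h3 hpos.le
    _ = 2 := by rw [mul_assoc, mul_comm (Real.exp (y ^ 2)), h2, mul_one]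

theorem aCoef_le (b : Bool) : aCoef b ≤ 8 / 5 := by
  unfold aCoef; split_ifs <;> norm_num

theorem aCoef_ge (b : Bool) : 50 / 39 ≤ aCoef b := by
  unfold aCoef; split_ifs <;> norm_num

theorem aCoef_pos (b : Bool) : 0 < aCoef b := lt_of_lt_of_le (by norm_num) (aCoef_ge b)

theorem sgn_sq (b : Bool) : sgn b ^ 2 = 1 := by
  unfold sgn; split_ifs <;> norm_num

theorem abs_sgn (b : Bool) : |sgn b| = 1 := by
  unfold sgn; split_ifs <;> norm_num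

/-! ### bounds for the sums -/

variable {d : ℕ}

theorem sum_s0_nonneg (σ : Fin d → Bool) (x : Fin d → ℝ) : 0 ≤ ∑ i, aCoef (σ i) * x i ^ 2 :=
  Finset.sum_nonneg fun _ _ => mul_nonneg (aCoef_pos _).le (sq_nonneg _)

theorem sum_s0_le (σ : Fin d → Bool) (x : Fin d → ℝ) :
    ∑ i, aCoef (σ i) * x i ^ 2 ≤ 8 / 5 * ∑ i, x i ^ 2 := by
  rw [Finset.mul_sum]
  exact Finset.sum_le_sum fun i _ => mul_le_mul_of_nonneg_right (aCoef_le _) (sq_nonneg _)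

theorem sum_s0_ge (σ : Fin d → Bool) (x : Fin d → ℝ) :
    50 / 39 * ∑ i, x i ^ 2 ≤ ∑ i, aCoef (σ i) * x i ^ 2 := by
  rw [Finset.mul_sum]
  exact Finset.sum_le_sum fun i _ => mul_le_mul_of_nonneg_right (aCoef_ge _) (sq_nonneg _)

theorem sum_s1_sq_le (σ : Fin d → Bool) (x v : Fin d → ℝ) :
    (∑ i, aCoef (σ i) * (2 * x i * v i)) ^ 2 ≤ 256 / 25 * (∑ i, x i ^ 2) * ∑ i, v i ^ 2 := by
  have h := Finset.sum_mul_sq_le_sq_mul_sq Finset.univ (fun i => aCoef (σ i) * (2 * x i)) v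
  have h1 : ∑ i, (aCoef (σ i) * (2 * x i)) ^ 2 ≤ 256 / 25 * ∑ i, x i ^ 2 := by
    rw [Finset.mul_sum]
    refine Finset.sum_le_sum fun i _ => ?_
    have h2 : aCoef (σ i) ^ 2 ≤ (8 / 5) ^ 2 :=
      pow_le_pow_left₀ (aCoef_pos _).le (aCoef_le _) 2
    nlinarith [sq_nonneg (x i)]
  calc (∑ i, aCoef (σ i) * (2 * x i * v i)) ^ 2
      = (∑ i, aCoef (σ i) * (2 * x i) * v i) ^ 2 := by
        congr 1; exact Finset.sum_congr rfl fun i _ => by ring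
    _ ≤ _ := h
    _ ≤ _ := mul_le_mul_of_nonneg_right h1 (Finset.sum_nonneg fun i _ => sq_nonneg _)

theorem sum_t1_sq_le (σ : Fin d → Bool) (x v : Fin d → ℝ) :
    (∑ i, sgn (σ i) * (-(2 * x i * Real.exp (-x i ^ 2)) * v i)) ^ 2 ≤ d * ∑ i, v i ^ 2 := by
  have h := Finset.sum_mul_sq_le_sq_mul_sq Finset.univ
    (fun i => sgn (σ i) * (-(2 * x i * Real.exp (-x i ^ 2)))) v
  have h1 : ∑ i, (sgn (σ i) * (-(2 * x i * Real.exp (-x i ^ 2)))) ^ 2 ≤ (d : ℝ) := by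
    calc ∑ i, (sgn (σ i) * (-(2 * x i * Real.exp (-x i ^ 2)))) ^ 2 ≤ ∑ _i : Fin d, (1 : ℝ) := by
          refine Finset.sum_le_sum fun i _ => ?_
          rw [mul_pow, sgn_sq, one_mul, neg_sq]
          exact two_mul_exp_neg_sq_sq_le _
      _ = d := by simp
  calc (∑ i, sgn (σ i) * (-(2 * x i * Real.exp (-x i ^ 2)) * v i)) ^ 2
      = (∑ i, sgn (σ i) * (-(2 * x i * Real.exp (-x i ^ 2))) * v i) ^ 2 := by
        congr 1; exact Finset.sum_congr rfl fun i _ => by ring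
    _ ≤ _ := h
    _ ≤ _ := mul_le_mul_of_nonneg_right h1 (Finset.sum_nonneg fun i _ => sq_nonneg _)

theorem abs_sum_t2_le (σ : Fin d → Bool) (x v : Fin d → ℝ) :
    |∑ i, sgn (σ i) * ((4 * x i ^ 2 - 2) * Real.exp (-x i ^ 2) * v i ^ 2)| ≤ 2 * ∑ i, v i ^ 2 := by
  rw [Finset.mul_sum]
  refine (Finset.abs_sum_le_sum_abs _ _).trans (Finset.sum_le_sum fun i _ => ?_)
  rw [abs_mul, abs_sgn, one_mul, abs_mul, abs_of_nonneg (sq_nonneg (v i))]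
  exact mul_le_mul_of_nonneg_right (abs_four_sq_sub_two_mul_exp_le _) (sq_nonneg _)

theorem sum_q1_sq_le (x v : Fin d → ℝ) :
    (∑ i, 2 * x i * v i) ^ 2 ≤ 4 * (∑ i, x i ^ 2) * ∑ i, v i ^ 2 := by
  have h := Finset.sum_mul_sq_le_sq_mul_sq Finset.univ (fun i => 2 * x i) v
  have h1 : ∑ i, (2 * x i) ^ 2 = 4 * ∑ i, x i ^ 2 := by
    rw [Finset.mul_sum]
    exact Finset.sum_congr rfl fun i _ => by ring
  rw [h1] at h
  exact h

end Vale.Agent.P347
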