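import Vale.Agent.P347.Family

/-!
# P347 (T4, part 1): second order jets of functions of one real variable
-/

namespace Vale.Agent.P347

/-- `f` is differentiable everywhere, its derivative is differentiable at `0`, and
`f 0 = f0`, `f' 0 = f1`, `f'' 0 = f2`. -/
def Jet2 (f : ℝ → ℝ) (f0 f1 f2 : ℝ) : Prop :=
  ∃ f' : ℝ → ℝ, (∀ t, HasDerivAt f (f' t) t) ∧ HasDerivAt f' f2 0 ∧ f 0 = f0 ∧ f' 0 = f1

theorem Jet2.deriv_deriv {f : ℝ → ℝ} {f0 f1 f2 : ℝ} (h : Jet2 f f0 f1 f2) :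
    deriv (deriv f) 0 = f2 := by
  obtain ⟨f', hf, hf2, -, -⟩ := h
  have : deriv f = f' := funext fun t => (hf t).deriv
  rw [this]
  exact hf2.deriv

theorem Jet2.mul {f g : ℝ → ℝ} {f0 f1 f2 g0 g1 g2 : ℝ} (hf : Jet2 f f0 f1 f2)
    (hg : Jet2 g g0 g1 g2) :
    Jet2 (fun t => f t * g t) (f0 * g0) (f1 * g0 + f0 * g1) (f2 * g0 + 2 * f1 * g1 + f0 * g2) := by
  obtain ⟨f', hf, hf2, rfl, rfl⟩ := hf
  obtain ⟨g', hg, hg2, rfl, rfl⟩ := hg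
  refine ⟨fun t => f' t * g t + f t * g' t, fun t => (hf t).mul (hg t), ?_, rfl, rfl⟩
  exact ((hf2.mul (hg 0)).add ((hf 0).mul hg2)).congr_deriv (by ring)

theorem Jet2.const_mul {f : ℝ → ℝ} {f0 f1 f2 : ℝ} (c : ℝ) (hf : Jet2 f f0 f1 f2) :
    Jet2 (fun t => c * f t) (c * f0) (c * f1) (c * f2) := by
  obtain ⟨f', hf, hf2, rfl, rfl⟩ := hf
  exact ⟨fun t => c * f' t, fun t => (hf t).const_mul c, hf2.const_mul c, rfl, rfl⟩

theorem Jet2.sub {f g : ℝ → ℝ} {f0 f1 f2 g0 g1 g2 : ℝ} (hf : Jet2 f f0 f1 f2)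
    (hg : Jet2 g g0 g1 g2) :
    Jet2 (fun t => f t - g t) (f0 - g0) (f1 - g1) (f2 - g2) := by
  obtain ⟨f', hf, hf2, rfl, rfl⟩ := hf
  obtain ⟨g', hg, hg2, rfl, rfl⟩ := hg
  exact ⟨fun t => f' t - g' t, fun t => (hf t).sub (hg t), hf2.sub hg2, rfl, rfl⟩

theorem Jet2.sub_const {f : ℝ → ℝ} {f0 f1 f2 : ℝ} (c : ℝ) (hf : Jet2 f f0 f1 f2) :
    Jet2 (fun t => f t - c) (f0 - c) f1 f2 := by
  obtain ⟨f', hf, hf2, rfl, rfl⟩ := hf
  exact ⟨f', fun t => (hf t).sub_const c, hf2, rfl, rfl⟩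

theorem Jet2.const_sub {f : ℝ → ℝ} {f0 f1 f2 : ℝ} (c : ℝ) (hf : Jet2 f f0 f1 f2) :
    Jet2 (fun t => c - f t) (c - f0) (-f1) (-f2) := by
  obtain ⟨f', hf, hf2, rfl, rfl⟩ := hf
  exact ⟨fun t => - f' t, fun t => (hf t).const_sub c, hf2.neg, rfl, rfl⟩

theorem Jet2.div_const {f : ℝ → ℝ} {f0 f1 f2 : ℝ} (c : ℝ) (hf : Jet2 f f0 f1 f2) :
    Jet2 (fun t => f t / c) (f0 / c) (f1 / c) (f2 / c) := by
  obtain ⟨f', hf, hf2, rfl, rfl⟩ := hf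
  exact ⟨fun t => f' t / c, fun t => (hf t).div_const c, hf2.div_const c, rfl, rfl⟩

theorem Jet2.sum {ι : Type*} (s : Finset ι) {f : ι → ℝ → ℝ} {f0 f1 f2 : ι → ℝ}
    (h : ∀ i ∈ s, Jet2 (f i) (f0 i) (f1 i) (f2 i)) :
    Jet2 (fun t => ∑ i ∈ s, f i t) (∑ i ∈ s, f0 i) (∑ i ∈ s, f1 i) (∑ i ∈ s, f2 i) := by
  classical
  choose! f' hf hf2 h0 h1 using h
  refine ⟨fun t => ∑ i ∈ s, f' i t, fun t => HasDerivAt.fun_sum fun i hi => hf i hi t,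
    HasDerivAt.fun_sum fun i hi => hf2 i hi, Finset.sum_congr rfl h0, Finset.sum_congr rfl h1⟩

theorem Jet2.comp {f : ℝ → ℝ} {f0 f1 f2 : ℝ} {θ θ' θ'' : ℝ → ℝ}
    (hθ : ∀ y, HasDerivAt θ (θ' y) y) (hθ' : ∀ y, HasDerivAt θ' (θ'' y) y)
    (hf : Jet2 f f0 f1 f2) :
    Jet2 (fun t => θ (f t)) (θ f0) (θ' f0 * f1) (θ'' f0 * f1 ^ 2 + θ' f0 * f2) := by
  obtain ⟨f', hf, hf2, rfl, rfl⟩ := hf
  refine ⟨fun t => θ' (f t) * f' t, fun t => (hθ (f t)).comp t (hf t), ?_, rfl, rfl⟩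
  exact (((hθ' (f 0)).comp 0 (hf 0)).mul hf2).congr_deriv (by
    simp only [Function.comp_apply]; ring)

theorem jet2_line (a b : ℝ) : Jet2 (fun t => a + t * b) a b 0 := by
  refine ⟨fun _ => b, fun t => ?_, hasDerivAt_const _ _, by simp, rfl⟩
  simpa using ((hasDerivAt_id t).mul_const b).const_add a

theorem jet2_sq_line (a b : ℝ) : Jet2 (fun t => (a + t * b) ^ 2) (a ^ 2) (2 * a * b) (2 * b ^ 2) := by
  have h := Jet2.comp (θ := fun y => y ^ 2) (θ' := fun y => 2 * y) (θ'' := fun _ => 2)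
    (fun y => by simpa using hasDerivAt_pow 2 y)
    (fun y => by simpa using (hasDerivAt_id y).const_mul 2) (jet2_line a b)
  simpa using h

theorem jet2_gauss_line (a b : ℝ) : Jet2 (fun t => Real.exp (-(a + t * b) ^ 2))
    (Real.exp (-a ^ 2)) (-(2 * a * Real.exp (-a ^ 2)) * b)
    ((4 * a ^ 2 - 2) * Real.exp (-a ^ 2) * b ^ 2) := by
  have h1 : ∀ y : ℝ, HasDerivAt (fun y => Real.exp (-y ^ 2)) (-(2 * y * Real.exp (-y ^ 2))) y := by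
    intro y
    exact (((hasDerivAt_pow 2 y).neg).exp).congr_deriv (by simp; ring)
  have h2 : ∀ y : ℝ, HasDerivAt (fun y => -(2 * y * Real.exp (-y ^ 2)))
      ((4 * y ^ 2 - 2) * Real.exp (-y ^ 2)) y := by
    intro y
    exact (((((hasDerivAt_id y).const_mul 2).mul (h1 y))).neg).congr_deriv (by simp; ring)
  have h := Jet2.comp h1 h2 (jet2_line a b)
  simpa using h

end Vale.Agent.P347
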