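import Vale.Agent.P347.Cutoff
import Vale.Agent.P347.HessJet
import Vale.Agent.P347.HessArith

/-!
# P347 (T3, T4): the potentials of the hard family belong to the class
-/

namespace Vale.Agent.P347

variable {d : ℕ}

theorem norm_sq_eq_sum (v : E d) : ‖v‖ ^ 2 = ∑ i, v i ^ 2 := by
  rw [EuclideanSpace.norm_sq_eq]
  exact Finset.sum_congr rfl fun i _ => by rw [Real.norm_eq_abs, sq_abs]

theorem jet2_sQ (σ : Fin d → Bool) (x v : E d) :
    Jet2 (fun t : ℝ => sQ σ (x + t • v)) (∑ i, aCoef (σ i) * x i ^ 2)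
      (∑ i, aCoef (σ i) * (2 * x i * v i)) (∑ i, aCoef (σ i) * (2 * v i ^ 2)) := by
  have h := Jet2.sum Finset.univ
    (fun i _ => (jet2_sq_line (x i) (v i)).const_mul (aCoef (σ i)))
  simp only [sQ, PiLp.add_apply, PiLp.smul_apply, smul_eq_mul]
  exact h

theorem jet2_tStat (σ : Fin d → Bool) (x v : E d) :
    Jet2 (fun t : ℝ => tStat σ (x + t • v)) (∑ i, sgn (σ i) * (Real.exp (-x i ^ 2) - 31 / 48))
      (∑ i, sgn (σ i) * (-(2 * x i * Real.exp (-x i ^ 2)) * v i))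
      (∑ i, sgn (σ i) * ((4 * x i ^ 2 - 2) * Real.exp (-x i ^ 2) * v i ^ 2)) := by
  have h := Jet2.sum Finset.univ
    (fun i _ => ((jet2_gauss_line (x i) (v i)).sub_const (31 / 48)).const_mul (sgn (σ i)))
  simp only [tStat, PiLp.add_apply, PiLp.smul_apply, smul_eq_mul]
  exact h

theorem jet2_normSq (x v : E d) :
    Jet2 (fun t : ℝ => ∑ i, (x + t • v) i ^ 2) (∑ i, x i ^ 2)
      (∑ i, 2 * x i * v i) (∑ i, 2 * v i ^ 2) := by
  have h := Jet2.sum Finset.univ (fun i _ => (jet2_sq_line (x i) (v i)))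
  simp only [PiLp.add_apply, PiLp.smul_apply, smul_eq_mul]
  exact h

theorem aux_p1 {D T n : ℝ} (hD : 0 < D) (h : T ^ 2 ≤ D * n) :
    (192 * T / D) ^ 2 ≤ 36864 * (n / D) := by
  rw [div_pow, mul_pow, div_le_iff₀ (by positivity)]
  calc (192 : ℝ) ^ 2 * T ^ 2 ≤ 192 ^ 2 * (D * n) := by
        exact mul_le_mul_of_nonneg_left h (by norm_num)
    _ = 36864 * (n / D) * D ^ 2 := by field_simp; ring

theorem aux_p2 {D T n : ℝ} (hD : 0 < D) (h : |T| ≤ 2 * n) :
    |192 * T / D| ≤ 384 * (n / D) := by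
  rw [abs_div, abs_mul, abs_of_pos hD, div_le_iff₀ hD]
  calc |(192 : ℝ)| * |T| ≤ 192 * (2 * n) := by
        rw [abs_of_pos (by norm_num : (0 : ℝ) < 192)]
        exact mul_le_mul_of_nonneg_left h (by norm_num)
    _ = 384 * (n / D) * D := by field_simp; ring

theorem aux_r1 {D Q X n : ℝ} (hD : 0 < D) (hn : 0 ≤ n) (hX : X ≤ 200 * D)
    (h : Q ^ 2 ≤ 4 * X * n) : (-(Q / (100 * D))) ^ 2 ≤ 2 / 25 * (n / D) := by
  rw [neg_sq, div_pow, div_le_iff₀ (by positivity)]
  calc Q ^ 2 ≤ 4 * X * n := h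
    _ ≤ 4 * (200 * D) * n := by
        exact mul_le_mul_of_nonneg_right (mul_le_mul_of_nonneg_left hX (by norm_num)) hn
    _ = 2 / 25 * (n / D) * (100 * D) ^ 2 := by field_simp; ring

theorem aux_r2 {D n : ℝ} (hD : 0 < D) (hn : 0 ≤ n) :
    |(-(2 * n / (100 * D)))| ≤ 1 / 50 * (n / D) := by
  rw [abs_neg, abs_of_nonneg (by positivity)]
  apply le_of_eq
  field_simp
  ring

/-- the second order jet of `sQ σ * cut σ` along a line, with the bound of its second derivative -/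
theorem jet2_sQ_cut {M : ℝ} (hM : ∀ y : ℝ, |deriv Real.smoothTransition y| ≤ M ∧
      |deriv (deriv Real.smoothTransition) y| ≤ M) (hd : 0 < d) (σ : Fin d → Bool) (x v : E d) :
    ∃ f0 f1 f2 : ℝ, Jet2 (fun t : ℝ => sQ σ (x + t • v) * cut σ (x + t • v)) f0 f1 f2 ∧
      |f2| ≤ hessK M * ‖v‖ ^ 2 := by
  have hθ : ∀ y, HasDerivAt Real.smoothTransition (deriv Real.smoothTransition y) y :=
    fun y => (differentiable_smoothTransition y).hasDerivAt
  have hθ' : ∀ y, HasDerivAt (deriv Real.smoothTransition)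
      (deriv (deriv Real.smoothTransition) y) y :=
    fun y => (differentiable_deriv_smoothTransition y).hasDerivAt
  have hS := jet2_sQ σ x v
  have hτ := (((jet2_tStat σ x v).const_mul 192).div_const d).sub_const 2
  have hρ := ((jet2_normSq x v).div_const (100 * d)).const_sub 2
  have hF := hS.mul ((Jet2.comp hθ hθ' hτ).mul (Jet2.comp hθ hθ' hρ))
  refine ⟨_, _, _, hF, ?_⟩
  have hD : (0 : ℝ) < d := by exact_mod_cast hd
  have hn : 0 ≤ ∑ i, v i ^ 2 := Finset.sum_nonneg fun _ _ => sq_nonneg _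
  have hM0 : 0 ≤ M := le_trans (abs_nonneg _) (hM 0).1
  rw [norm_sq_eq_sum]
  by_cases hX : ∑ i, x i ^ 2 ≤ 200 * (d : ℝ)
  · have hDu : (d : ℝ) * ((∑ i, v i ^ 2) / d) = ∑ i, v i ^ 2 := by field_simp
    have hθ01 : ∀ y, |Real.smoothTransition y| ≤ 1 := fun y => by
      rw [abs_of_nonneg (Real.smoothTransition.nonneg y)]
      exact Real.smoothTransition.le_one y
    have h2 : ∑ i, aCoef (σ i) * (2 * v i ^ 2) = 2 * ∑ i, aCoef (σ i) * v i ^ 2 := by
      rw [Finset.mul_sum]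
      exact Finset.sum_congr rfl fun i _ => by ring
    have h3 : ∑ i, 2 * v i ^ 2 = 2 * ∑ i, v i ^ 2 := by rw [Finset.mul_sum]
    calc _ ≤ hessK M * ((d : ℝ) * ((∑ i, v i ^ 2) / d)) := by
          refine arith_bound M d ((∑ i, v i ^ 2) / d) _ _ _ _ _ _ _ _ _ _ _ _ _
            hD (by positivity) (sum_s0_nonneg σ x) ?_ ?_ ?_
            (aux_p1 hD (sum_t1_sq_le σ x v)) (aux_p2 hD (abs_sum_t2_le σ x v))
            (aux_r1 hD hn hX (sum_q1_sq_le x v)) (by rw [h3]; exact aux_r2 hD hn)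
            (hθ01 _) (hM _).1 (hM _).2 (hθ01 _) (hM _).1 (hM _).2
          · have := sum_s0_le σ x
            linarith
          · rw [hDu]
            refine (sum_s1_sq_le σ x v).trans ?_
            have : 256 / 25 * (∑ i, x i ^ 2) ≤ 2048 * (d : ℝ) := by linarith
            exact mul_le_mul_of_nonneg_right this hn
          · rw [hDu, h2, abs_of_nonneg (mul_nonneg (by norm_num) (sum_s0_nonneg σ v))]
            have := sum_s0_le σ v
            linarith
      _ = _ := by rw [hDu]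
  · have hneg : 2 - (∑ i, x i ^ 2) / (100 * (d : ℝ)) < 0 := by
      have : 2 < (∑ i, x i ^ 2) / (100 * (d : ℝ)) := by
        rw [lt_div_iff₀ (by positivity)]
        linarith
      linarith
    rw [Real.smoothTransition.zero_of_nonpos hneg.le, deriv_smoothTransition_of_neg hneg,
      deriv_deriv_smoothTransition_of_neg hneg]
    simp only [mul_zero, zero_mul, add_zero, abs_zero]
    exact mul_nonneg (hessK_nonneg hM0) hn

/-- (T4) the Hessian of `sQ σ * cut σ` is bounded by an absolute constant, uniformly in `d`. -/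
theorem hess_sQ_cut_bound : ∃ K : ℝ, 0 ≤ K ∧ ∀ d : ℕ, 0 < d → ∀ (σ : Fin d → Bool) (x v : E d),
    |fderiv ℝ (fderiv ℝ (fun y => sQ σ y * cut σ y)) x v v| ≤ K * ‖v‖ ^ 2 := by
  obtain ⟨M, hM0, hM⟩ := smoothTransition_deriv_bounds
  refine ⟨hessK M, hessK_nonneg hM0, fun d hd σ x v => ?_⟩
  obtain ⟨f0, f1, f2, hJ, hb⟩ := jet2_sQ_cut hM hd σ x v
  rw [fderiv_fderiv_eq_deriv_deriv ((contDiff_sQ σ).mul (contDiff_cut σ)) x v, hJ.deriv_deriv]
  exact hb

theorem cut_nonneg (σ : Fin d → Bool) (x : E d) : 0 ≤ cut σ x :=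
  mul_nonneg (Real.smoothTransition.nonneg _) (Real.smoothTransition.nonneg _)

theorem cut_le_one (σ : Fin d → Bool) (x : E d) : cut σ x ≤ 1 :=
  mul_le_one₀ (Real.smoothTransition.le_one _) (Real.smoothTransition.nonneg _)
    (Real.smoothTransition.le_one _)

theorem sQ_nonneg (σ : Fin d → Bool) (x : E d) : 0 ≤ sQ σ x := sum_s0_nonneg σ x

theorem sQ_zero (σ : Fin d → Bool) : sQ σ 0 = 0 := by simp [sQ]

theorem gradient_eq_zero_of_min {V : E d → ℝ} (h0 : V 0 = 0) (h : ∀ x, 0 ≤ V x) :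
    gradient V 0 = 0 := by
  have hmin : IsLocalMin V 0 := Filter.Eventually.of_forall fun x => by rw [h0]; exact h x
  unfold gradient
  rw [hmin.fderiv_eq_zero, map_zero]

theorem contDiff_V0 (lam : ℝ) (σ : Fin d → Bool) : ContDiff ℝ 2 (V0 lam σ) :=
  contDiff_const.mul (contDiff_sQ σ)

theorem contDiff_V1 (lam : ℝ) (σ : Fin d → Bool) : ContDiff ℝ 2 (V1 lam σ) :=
  (contDiff_const.mul (contDiff_sQ σ)).sub
    (contDiff_const.mul ((contDiff_sQ σ).mul (contDiff_cut σ)))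

/-- (T4) class membership for small `lam`, uniformly in `d`. -/
theorem inClass_V0_V1 : ∃ lam0 : ℝ, 0 < lam0 ∧ ∀ d : ℕ, 0 < d → ∀ (σ : Fin d → Bool) (lam : ℝ),
    0 ≤ lam → lam ≤ lam0 → InClass (V0 lam σ) ∧ InClass (V1 lam σ) := by
  obtain ⟨M, hM0, hM⟩ := smoothTransition_deriv_bounds
  have hK := hessK_nonneg hM0
  refine ⟨1 / 4 / (hessK M + 4), by positivity, fun d hd σ lam hlam hlam0 => ?_⟩
  have hc : lam * (hessK M + 4) ≤ 1 / 4 := by
    rwa [le_div_iff₀ (by positivity)] at hlam0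
  have hlam8 : lam ≤ 1 / 16 := by nlinarith
  have hlamK : lam * hessK M ≤ 1 / 4 - 4 * lam := by linarith
  have h2 : ∀ v : E d, ∑ i, aCoef (σ i) * (2 * v i ^ 2) = 2 * ∑ i, aCoef (σ i) * v i ^ 2 := by
    intro v
    rw [Finset.mul_sum]
    exact Finset.sum_congr rfl fun i _ => by ring
  have hess0 : ∀ x v : E d, fderiv ℝ (fderiv ℝ (V0 lam σ)) x v v
      = (1 / 2 + lam) * (2 * ∑ i, aCoef (σ i) * v i ^ 2) := by
    intro x v
    rw [fderiv_fderiv_eq_deriv_deriv (contDiff_V0 lam σ) x v, ← h2]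
    exact ((jet2_sQ σ x v).const_mul (1 / 2 + lam)).deriv_deriv
  have hess1 : ∀ x v : E d, ∃ f2 : ℝ, |f2| ≤ hessK M * ‖v‖ ^ 2 ∧
      fderiv ℝ (fderiv ℝ (V1 lam σ)) x v v
      = (1 / 2 + lam) * (2 * ∑ i, aCoef (σ i) * v i ^ 2) - lam * f2 := by
    intro x v
    obtain ⟨f0, f1, f2, hJ, hb⟩ := jet2_sQ_cut hM hd σ x v
    refine ⟨f2, hb, ?_⟩
    rw [fderiv_fderiv_eq_deriv_deriv (contDiff_V1 lam σ) x v, ← h2]
    exact (((jet2_sQ σ x v).const_mul (1 / 2 + lam)).sub (hJ.const_mul lam)).deriv_deriv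
  constructor
  · refine ⟨contDiff_V0 lam σ, by simp [V0, sQ_zero], ?_, fun x v => ?_, fun x v => ?_⟩
    · refine gradient_eq_zero_of_min (by simp [V0, sQ_zero]) fun x => ?_
      exact mul_nonneg (by linarith) (sQ_nonneg σ x)
    · rw [hessQ_eq, hess0, norm_sq_eq_sum]
      have h3 := sum_s0_ge σ v
      have h4 : 0 ≤ ∑ i, v i ^ 2 := Finset.sum_nonneg fun _ _ => sq_nonneg _
      have h5 := sum_s0_nonneg σ v
      nlinarith
    · rw [hessQ_eq, hess0, norm_sq_eq_sum]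
      have h3 := sum_s0_le σ v
      have h4 : 0 ≤ ∑ i, v i ^ 2 := Finset.sum_nonneg fun _ _ => sq_nonneg _
      have h5 := sum_s0_nonneg σ v
      nlinarith
  · refine ⟨contDiff_V1 lam σ, by simp [V1, sQ_zero], ?_, fun x v => ?_, fun x v => ?_⟩
    · refine gradient_eq_zero_of_min (by simp [V1, sQ_zero]) fun x => ?_
      have h1 := sQ_nonneg σ x
      have h3 := cut_le_one σ x
      have h4 : 0 ≤ lam * (sQ σ x * (1 - cut σ x)) :=
        mul_nonneg hlam (mul_nonneg h1 (by linarith))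
      unfold V1
      nlinarith
    · obtain ⟨f2, hb, he⟩ := hess1 x v
      rw [hessQ_eq, he]
      rw [norm_sq_eq_sum] at hb ⊢
      have h3 := sum_s0_ge σ v
      have h4 : 0 ≤ ∑ i, v i ^ 2 := Finset.sum_nonneg fun _ _ => sq_nonneg _
      have h5 := sum_s0_nonneg σ v
      have h6 : lam * f2 ≤ lam * (hessK M * ∑ i, v i ^ 2) :=
        mul_le_mul_of_nonneg_left (le_trans (le_abs_self _) hb) hlam
      have h7 : lam * (hessK M * ∑ i, v i ^ 2) ≤ (1 / 4) * ∑ i, v i ^ 2 := by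
        rw [← mul_assoc]
        exact mul_le_mul_of_nonneg_right (by linarith) h4
      have h8 : 0 ≤ lam * ∑ i, aCoef (σ i) * v i ^ 2 := mul_nonneg hlam h5
      nlinarith
    · obtain ⟨f2, hb, he⟩ := hess1 x v
      rw [hessQ_eq, he]
      rw [norm_sq_eq_sum] at hb ⊢
      have h3 := sum_s0_le σ v
      have h4 : 0 ≤ ∑ i, v i ^ 2 := Finset.sum_nonneg fun _ _ => sq_nonneg _
      have h5 := sum_s0_nonneg σ v
      have h6 : -(lam * f2) ≤ lam * (hessK M * ∑ i, v i ^ 2) := by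
        rw [← mul_neg]
        exact mul_le_mul_of_nonneg_left (le_trans (neg_le_abs _) hb) hlam
      have h7 : lam * (hessK M * ∑ i, v i ^ 2) ≤ (1 / 4 - 4 * lam) * ∑ i, v i ^ 2 := by
        rw [← mul_assoc]
        exact mul_le_mul_of_nonneg_right hlamK h4
      have h8 : lam * ∑ i, aCoef (σ i) * v i ^ 2 ≤ lam * (8 / 5 * ∑ i, v i ^ 2) :=
        mul_le_mul_of_nonneg_left h3 hlam
      nlinarith

end Vale.Agent.P347
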