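import Vale.Agent.P347.Family

/-!
# P347 (T1): Hoeffding's inequality for Rademacher sums, in counting form
-/

namespace Vale.Agent.P347

/-- The exponential moment of a Rademacher sum factorises. -/
theorem sum_exp_rademacher (d : ℕ) (c : Fin d → ℝ) (θ : ℝ) :
    ∑ σ : Fin d → Bool, Real.exp (θ * ∑ i, sgn (σ i) * c i)
      = ∏ i, (Real.exp (θ * c i) + Real.exp (-(θ * c i))) := by
  have h1 : ∀ σ : Fin d → Bool, Real.exp (θ * ∑ i, sgn (σ i) * c i)
      = ∏ i, Real.exp (θ * (sgn (σ i) * c i)) := by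
    intro σ
    rw [Finset.mul_sum, Real.exp_sum]
  simp_rw [h1]
  have h2 := (Finset.prod_univ_sum (fun _ : Fin d => (Finset.univ : Finset Bool))
    (fun i b => Real.exp (θ * (sgn b * c i)))).symm
  rw [Fintype.piFinset_univ] at h2
  rw [h2]
  refine Finset.prod_congr rfl fun i _ => ?_
  rw [Fintype.sum_bool]
  simp [sgn]

/-- Among the `2^d` sign patterns `σ`, at most `2^d exp(-t²/(2d))` satisfy `∑ ε_i c_i ≥ t`
(when `|c_i| ≤ 1`). -/
theorem card_rademacher_ge_le (d : ℕ) (c : Fin d → ℝ) (hc : ∀ i, |c i| ≤ 1) (t : ℝ) (ht : 0 ≤ t) :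
    (((Finset.univ : Finset (Fin d → Bool)).filter
      (fun σ => t ≤ ∑ i, sgn (σ i) * c i)).card : ℝ) ≤ 2 ^ d * Real.exp (-(t ^ 2) / (2 * d)) := by
  rcases Nat.eq_zero_or_pos d with hd | hd
  · subst hd
    have hcard : (((Finset.univ : Finset (Fin 0 → Bool)).filter
      (fun σ => t ≤ ∑ i, sgn (σ i) * c i)).card : ℝ) ≤ 1 := by
      have := Finset.card_filter_le (Finset.univ : Finset (Fin 0 → Bool))
        (fun σ => t ≤ ∑ i, sgn (σ i) * c i)
      have h1 : (Finset.univ : Finset (Fin 0 → Bool)).card = 1 := by simp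
      rw [h1] at this
      exact_mod_cast this
    simpa using hcard
  have hdR : (0 : ℝ) < d := by exact_mod_cast hd
  set θ : ℝ := t / d with hθ
  have hθ0 : 0 ≤ θ := div_nonneg ht hdR.le
  -- Markov
  have hM : (((Finset.univ : Finset (Fin d → Bool)).filter
      (fun σ => t ≤ ∑ i, sgn (σ i) * c i)).card : ℝ)
      ≤ ∑ σ : Fin d → Bool, Real.exp (θ * (∑ i, sgn (σ i) * c i) - θ * t) := by
    rw [Finset.card_eq_sum_ones, Nat.cast_sum, Finset.sum_filter]
    refine Finset.sum_le_sum fun σ _ => ?_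
    split_ifs with h
    · have : 0 ≤ θ * (∑ i, sgn (σ i) * c i) - θ * t := by
        have := mul_le_mul_of_nonneg_left h hθ0
        linarith
      simpa using Real.one_le_exp this
    · exact (Real.exp_pos _).le
  have hS : ∑ σ : Fin d → Bool, Real.exp (θ * (∑ i, sgn (σ i) * c i) - θ * t)
      = (∏ i, (Real.exp (θ * c i) + Real.exp (-(θ * c i)))) * Real.exp (-(θ * t)) := by
    rw [← sum_exp_rademacher, Finset.sum_mul]
    refine Finset.sum_congr rfl fun σ _ => ?_
    rw [← Real.exp_add, sub_eq_add_neg]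
  have hP : ∏ i, (Real.exp (θ * c i) + Real.exp (-(θ * c i)))
      ≤ ∏ _i : Fin d, (2 * Real.exp (θ ^ 2 / 2)) := by
    refine Finset.prod_le_prod (fun i _ => by positivity) fun i _ => ?_
    have h1 := Real.cosh_le_exp_half_sq (θ * c i)
    rw [Real.cosh_eq] at h1
    have h2 : (θ * c i) ^ 2 / 2 ≤ θ ^ 2 / 2 := by
      have h3 : (c i) ^ 2 ≤ 1 := by
        have := hc i
        rw [abs_le] at this
        nlinarith [this.1, this.2]
      have h4 : θ ^ 2 * (c i) ^ 2 ≤ θ ^ 2 * 1 := mul_le_mul_of_nonneg_left h3 (sq_nonneg _)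
      rw [mul_pow]
      linarith
    have h5 := Real.exp_le_exp.mpr h2
    linarith
  rw [Finset.prod_const, Finset.card_univ, Fintype.card_fin, mul_pow, ← Real.exp_nat_mul] at hP
  calc (((Finset.univ : Finset (Fin d → Bool)).filter
      (fun σ => t ≤ ∑ i, sgn (σ i) * c i)).card : ℝ)
      ≤ (∏ i, (Real.exp (θ * c i) + Real.exp (-(θ * c i)))) * Real.exp (-(θ * t)) := by
        rw [← hS]; exact hM
    _ ≤ (2 ^ d * Real.exp (d * (θ ^ 2 / 2))) * Real.exp (-(θ * t)) :=
        mul_le_mul_of_nonneg_right hP (Real.exp_pos _).le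
    _ = 2 ^ d * Real.exp (-(t ^ 2) / (2 * d)) := by
        rw [mul_assoc, ← Real.exp_add]
        congr 2
        rw [hθ]
        field_simp
        ring

end Vale.Agent.P347
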