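import Vale.Agent.P347.Defs

/-!
# P347: indistinguishability for non-adaptive algorithms, and the pigeonhole over a finite family
-/

namespace Vale.Agent.P347

open MeasureTheory

variable {d q : ℕ}

theorem InClass.continuous {V : E d → ℝ} (hV : InClass V) : Continuous V :=
  hV.contDiff.continuous

theorem InClass.continuous_gradient {V : E d → ℝ} (hV : InClass V) : Continuous (gradient V) := by
  have h1 : Continuous (fderiv ℝ V) := hV.contDiff.continuous_fderiv (by norm_num)
  unfold gradient
  exact (LinearIsometryEquiv.continuous _).comp h1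

theorem NonadaptiveAlg.measurable_run (A : NonadaptiveAlg d q) {V : E d → ℝ} (hV : InClass V) :
    Measurable (A.run V) := by
  unfold NonadaptiveAlg.run
  refine A.out_meas.comp (measurable_id.prodMk ?_)
  refine measurable_pi_lambda _ fun j => ?_
  have hj : Measurable fun ω => A.pts ω j := (measurable_pi_apply j).comp A.pts_meas
  exact (hV.continuous.measurable.comp hj).prodMk (hV.continuous_gradient.measurable.comp hj)

theorem NonadaptiveAlg.measurableSet_hit (A : NonadaptiveAlg d q) {S : Set (E d)}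
    (hS : MeasurableSet S) : MeasurableSet {ω | ∃ j, A.pts ω j ∈ S} := by
  have : {ω | ∃ j, A.pts ω j ∈ S} = ⋃ j, (fun ω => A.pts ω j) ⁻¹' S := by
    ext ω; simp
  rw [this]
  exact MeasurableSet.iUnion fun j => ((measurable_pi_apply j).comp A.pts_meas) hS

/-- If two potentials of the class have the same values and gradients off `S`, then the output laws
differ by at most the probability that some query point falls in `S`. -/
theorem NonadaptiveAlg.law_le_law_add (A : NonadaptiveAlg d q) {V V' : E d → ℝ} (hV : InClass V)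
    (hV' : InClass V') (S : Set (E d))
    (hval : ∀ x, x ∉ S → V x = V' x) (hgrad : ∀ x, x ∉ S → gradient V x = gradient V' x)
    (B : Set (E d)) (hB : MeasurableSet B) :
    (A.law V B).toReal ≤ (A.law V' B).toReal + (A.P {ω | ∃ j, A.pts ω j ∈ S}).toReal := by
  unfold NonadaptiveAlg.law
  rw [Measure.map_apply (A.measurable_run hV) hB, Measure.map_apply (A.measurable_run hV') hB]
  have hsub : A.run V ⁻¹' B ⊆ A.run V' ⁻¹' B ∪ {ω | ∃ j, A.pts ω j ∈ S} := by
    intro ω hω
    by_cases h : ∃ j, A.pts ω j ∈ S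
    · exact Or.inr h
    · left
      have h' : ∀ j, A.pts ω j ∉ S := by
        intro j hj
        exact h ⟨j, hj⟩
      have : A.run V' ω = A.run V ω := by
        unfold NonadaptiveAlg.run
        congr 2
        funext j
        rw [hval _ (h' j), hgrad _ (h' j)]
      simpa [Set.mem_preimage, this] using hω
  have h1 : A.P (A.run V ⁻¹' B) ≤ A.P (A.run V' ⁻¹' B) + A.P {ω | ∃ j, A.pts ω j ∈ S} :=
    (measure_mono hsub).trans (measure_union_le _ _)
  rw [← ENNReal.toReal_add (measure_ne_top _ _) (measure_ne_top _ _)]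
  exact ENNReal.toReal_mono (ENNReal.add_ne_top.2 ⟨measure_ne_top _ _, measure_ne_top _ _⟩) h1

/-- Pigeonhole: if every point lies in at most a fraction `θ` of the sets `S i`, then for some `i`
the probability that one of the `q` (non-adaptive) query points lies in `S i` is at most `q θ`. -/
theorem NonadaptiveAlg.exists_hit_le (A : NonadaptiveAlg d q) {ι : Type} [Fintype ι] [Nonempty ι]
    (S : ι → Set (E d)) (hS : ∀ i, MeasurableSet (S i)) (θ : ℝ)
    (hθ : ∀ x, open Classical in
      (((Finset.univ : Finset ι).filter (fun i => x ∈ S i)).card : ℝ) ≤ θ * Fintype.card ι) :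
    ∃ i, (A.P {ω | ∃ j, A.pts ω j ∈ S i}).toReal ≤ q * θ := by
  classical
  by_contra hcon
  push Not at hcon
  have hmeas : ∀ i j, MeasurableSet ((fun ω => A.pts ω j) ⁻¹' S i) := fun i j =>
    ((measurable_pi_apply j).comp A.pts_meas) (hS i)
  -- union bound
  have h1 : ∀ i, (A.P {ω | ∃ j, A.pts ω j ∈ S i}).toReal
      ≤ ∑ j, (A.P ((fun ω => A.pts ω j) ⁻¹' S i)).toReal := by
    intro i
    have : {ω | ∃ j, A.pts ω j ∈ S i} = ⋃ j ∈ (Finset.univ : Finset (Fin q)),
        (fun ω => A.pts ω j) ⁻¹' S i := by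
      ext ω; simp
    rw [this, ← ENNReal.toReal_sum (fun j _ => measure_ne_top _ _)]
    exact ENNReal.toReal_mono (ENNReal.sum_ne_top.2 fun j _ => measure_ne_top _ _)
      (measure_biUnion_finset_le _ _)
  -- double counting
  have h2 : ∀ j, ∑ i, (A.P ((fun ω => A.pts ω j) ⁻¹' S i)).toReal ≤ θ * Fintype.card ι := by
    intro j
    have e1 : ∀ i, (A.P ((fun ω => A.pts ω j) ⁻¹' S i)).toReal
        = ∫ ω, ((fun ω => A.pts ω j) ⁻¹' S i).indicator (fun _ => (1 : ℝ)) ω ∂A.P := by
      intro i
      rw [integral_indicator (hmeas i j)]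
      simp [Measure.real]
    simp_rw [e1]
    rw [← integral_finsetSum _ (fun i _ => (integrable_const (1 : ℝ)).indicator (hmeas i j))]
    have e2 : ∀ ω, ∑ i, ((fun ω => A.pts ω j) ⁻¹' S i).indicator (fun _ => (1 : ℝ)) ω
        = (((Finset.univ : Finset ι).filter (fun i => A.pts ω j ∈ S i)).card : ℝ) := by
      intro ω
      simp [Set.indicator_apply]
    simp_rw [e2]
    calc ∫ ω, (((Finset.univ : Finset ι).filter (fun i => A.pts ω j ∈ S i)).card : ℝ) ∂A.P
        ≤ ∫ _ω, θ * Fintype.card ι ∂A.P := by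
          refine integral_mono_of_nonneg (Filter.Eventually.of_forall fun ω => by positivity)
            (integrable_const _) (Filter.Eventually.of_forall fun ω => ?_)
          have := hθ (A.pts ω j)
          convert this
      _ = θ * Fintype.card ι := by simp
  have h3 : ∑ i : ι, (q * θ) < ∑ i, (A.P {ω | ∃ j, A.pts ω j ∈ S i}).toReal :=
    Finset.sum_lt_sum_of_nonempty Finset.univ_nonempty fun i _ => hcon i
  have h4 : ∑ i, (A.P {ω | ∃ j, A.pts ω j ∈ S i}).toReal ≤ ∑ j : Fin q, θ * Fintype.card ι := by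
    calc ∑ i, (A.P {ω | ∃ j, A.pts ω j ∈ S i}).toReal
        ≤ ∑ i, ∑ j, (A.P ((fun ω => A.pts ω j) ⁻¹' S i)).toReal :=
          Finset.sum_le_sum fun i _ => h1 i
      _ = ∑ j, ∑ i, (A.P ((fun ω => A.pts ω j) ⁻¹' S i)).toReal := Finset.sum_comm
      _ ≤ ∑ j : Fin q, θ * Fintype.card ι := Finset.sum_le_sum fun j _ => h2 j
  simp only [Finset.sum_const, Finset.card_univ, Fintype.card_fin, nsmul_eq_mul] at h3 h4
  nlinarith

end Vale.Agent.P347
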