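import Vale.Agent.P347.TV

/-!
# P347: quantitative separation of the two Gibbs laws
-/

namespace Vale.Agent.P347

open MeasureTheory ProbabilityTheory

variable {d : ℕ}

theorem mean_u_base (b : Bool) :
    ∫ y, Real.exp (-(3 / 2 * aCoef b * y ^ 2)) ∂gaussianReal 0 (Real.toNNReal (1 / aCoef b))
      = 1 / 2 := by
  have hb := aCoef_pos b
  rw [integral_exp_neg_mul_sq_gaussianReal (3 / 2 * aCoef b) (1 / aCoef b) (by positivity)
    (by positivity)]
  have : 1 + 2 * (3 / 2 * aCoef b) * (1 / aCoef b) = 2 ^ 2 := by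
    field_simp
    norm_num
  rw [this, Real.sqrt_sq (by norm_num)]

theorem mean_u_tilt (b : Bool) {lam : ℝ} (h0 : 0 ≤ lam) (h1 : lam ≤ 1 / 2) :
    1 / 2 + lam / 5 ≤ ∫ y, Real.exp (-(3 / 2 * aCoef b * y ^ 2))
      ∂gaussianReal 0 (Real.toNNReal (1 / ((1 + 2 * lam) * aCoef b))) := by
  have hb := aCoef_pos b
  rw [integral_exp_neg_mul_sq_gaussianReal (3 / 2 * aCoef b) (1 / ((1 + 2 * lam) * aCoef b))
    (by positivity) (by positivity)]
  have e : 1 + 2 * (3 / 2 * aCoef b) * (1 / ((1 + 2 * lam) * aCoef b)) = 1 + 3 / (1 + 2 * lam) := by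
    field_simp
  rw [e]
  have hpos : 0 < 1 + 3 / (1 + 2 * lam) := by positivity
  rw [le_div_iff₀ (Real.sqrt_pos.2 hpos)]
  have hs : Real.sqrt (1 + 3 / (1 + 2 * lam)) ≤ 1 / (1 / 2 + lam / 5) := by
    rw [Real.sqrt_le_iff]
    refine ⟨by positivity, ?_⟩
    rw [div_pow, one_pow, le_div_iff₀ (by positivity)]
    have : (1 + 3 / (1 + 2 * lam)) = (4 + 2 * lam) / (1 + 2 * lam) := by
      field_simp
      ring
    rw [this, div_mul_eq_mul_div, div_le_iff₀ (by positivity)]
    nlinarith [mul_nonneg h0 h0, mul_nonneg (mul_nonneg h0 h0) h0,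
      mul_nonneg h0 (sub_nonneg.2 h1), mul_nonneg (mul_nonneg h0 h0) (sub_nonneg.2 h1)]
  calc (1 / 2 + lam / 5) * Real.sqrt (1 + 3 / (1 + 2 * lam))
      ≤ (1 / 2 + lam / 5) * (1 / (1 / 2 + lam / 5)) := by gcongr
    _ = 1 := by
        field_simp

theorem mean_t_base (b : Bool) :
    ∫ y, sgn b * (Real.exp (-y ^ 2) - 31 / 48) ∂gaussianReal 0 (Real.toNNReal (1 / aCoef b))
      = 1 / 48 := by
  have hb := aCoef_pos b
  have hint : Integrable (fun y : ℝ => Real.exp (-y ^ 2))
      (gaussianReal 0 (Real.toNNReal (1 / aCoef b))) := by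
    refine Integrable.of_bound (by fun_prop) 1 (Filter.Eventually.of_forall fun y => ?_)
    rw [Real.norm_eq_abs, abs_of_pos (Real.exp_pos _)]
    exact Real.exp_le_one_iff.2 (by nlinarith [sq_nonneg y])
  rw [integral_const_mul, integral_sub hint (integrable_const _)]
  have e : ∀ y : ℝ, Real.exp (-y ^ 2) = Real.exp (-(1 * y ^ 2)) := by
    intro y; rw [one_mul]
  simp_rw [e]
  rw [integral_exp_neg_mul_sq_gaussianReal 1 (1 / aCoef b) (by norm_num) (by positivity)]
  simp only [integral_const, probReal_univ, smul_eq_mul, one_mul]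
  cases b
  · have : 1 + 2 * 1 * (1 / aCoef false) = (8 / 5 : ℝ) ^ 2 := by
      unfold aCoef; norm_num
    rw [this, Real.sqrt_sq (by norm_num)]
    unfold sgn; norm_num
  · have : 1 + 2 * 1 * (1 / aCoef true) = (3 / 2 : ℝ) ^ 2 := by
      unfold aCoef; norm_num
    rw [this, Real.sqrt_sq (by norm_num)]
    unfold sgn; norm_num

theorem abs_exp_neg_le_one {r : ℝ} (hr : 0 ≤ r) : |Real.exp (-r)| ≤ 1 := by
  rw [abs_of_pos (Real.exp_pos _)]
  exact Real.exp_le_one_iff.2 (by linarith)

theorem abs_sgn_mul_le_one (b : Bool) (y : ℝ) : |sgn b * (Real.exp (-y ^ 2) - 31 / 48)| ≤ 1 := by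
  have h1 : Real.exp (-y ^ 2) ≤ 1 := Real.exp_le_one_iff.2 (by nlinarith [sq_nonneg y])
  have h2 : 0 < Real.exp (-y ^ 2) := Real.exp_pos _
  unfold sgn
  rw [abs_le]
  split_ifs <;> constructor <;> linarith

/-- the test set -/
def testSet (lam : ℝ) (σ : Fin d → Bool) : Set (E d) :=
  {x | (d : ℝ) / 2 + lam * d / 10 ≤ uStat σ x}

theorem measurableSet_testSet (lam : ℝ) (σ : Fin d → Bool) : MeasurableSet (testSet lam σ) :=
  (isClosed_le continuous_const (continuous_uStat σ)).measurableSet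

/-- the set on which the perturbed potential is exactly the base Gaussian potential -/
def coreSet (σ : Fin d → Bool) : Set (E d) :=
  {x | (d : ℝ) / 64 ≤ tStat σ x} ∩ {x | ∑ i, x i ^ 2 ≤ 100 * d}

theorem measurableSet_coreSet (σ : Fin d → Bool) : MeasurableSet (coreSet σ) :=
  (isClosed_le continuous_const (continuous_tStat σ)).measurableSet.inter
    (isClosed_le (by fun_prop) continuous_const).measurableSet

theorem base_testSet_le (hd : 0 < d) (σ : Fin d → Bool) {lam : ℝ} (h0 : 0 < lam)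
    (hl : 2500 ≤ lam ^ 2 * d) :
    (gibbs (quadPot fun i => aCoef (σ i)) (testSet lam σ)).toReal ≤ 4 / 100 := by
  have hd' : (0 : ℝ) < d := by exact_mod_cast hd
  have ha : ∀ i, 0 < aCoef (σ i) := fun i => aCoef_pos _
  have := isProbabilityMeasure_gibbs_quadPot _ ha
  have cheb := gibbs_quadPot_chebyshev (fun i => aCoef (σ i)) ha
    (fun i y => Real.exp (-(3 / 2 * aCoef (σ i) * y ^ 2))) (fun i => by fun_prop)
    (fun i y => abs_exp_neg_le_one (by have := ha i; positivity)) (lam * d / 10) (by positivity)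
  refine le_trans (ENNReal.toReal_mono (measure_ne_top _ _) (measure_mono ?_)) (cheb.trans ?_)
  · intro x hx
    simp only [testSet, Set.mem_ofPred_eq] at hx
    simp only [Set.mem_ofPred_eq, mean_u_base]
    refine le_trans ?_ (le_abs_self _)
    rw [Finset.sum_sub_distrib]
    simp only [Finset.sum_const, Finset.card_univ, Fintype.card_fin, nsmul_eq_mul]
    unfold uStat at hx
    linarith
  · rw [div_le_iff₀ (by positivity)]
    nlinarith

theorem tilt_testSet_ge (hd : 0 < d) (σ : Fin d → Bool) {lam : ℝ} (h0 : 0 < lam)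
    (h1 : lam ≤ 1 / 2) (hl : 2500 ≤ lam ^ 2 * d) :
    96 / 100 ≤ (gibbs (V0 lam σ) (testSet lam σ)).toReal := by
  have hd' : (0 : ℝ) < d := by exact_mod_cast hd
  have ha : ∀ i, 0 < (1 + 2 * lam) * aCoef (σ i) := fun i =>
    mul_pos (by linarith) (aCoef_pos _)
  rw [V0_eq_quadPot]
  have := isProbabilityMeasure_gibbs_quadPot _ ha
  have cheb := gibbs_quadPot_chebyshev (fun i => (1 + 2 * lam) * aCoef (σ i)) ha
    (fun i y => Real.exp (-(3 / 2 * aCoef (σ i) * y ^ 2))) (fun i => by fun_prop)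
    (fun i y => abs_exp_neg_le_one (by have := aCoef_pos (σ i); positivity))
    (lam * d / 10) (by positivity)
  have hc : (gibbs (quadPot fun i => (1 + 2 * lam) * aCoef (σ i)) (testSet lam σ)ᶜ).toReal
      ≤ 4 / 100 := by
    refine le_trans (ENNReal.toReal_mono (measure_ne_top _ _) (measure_mono ?_)) (cheb.trans ?_)
    · intro x hx
      simp only [testSet, Set.mem_compl_iff, Set.mem_ofPred_eq, not_le] at hx
      simp only [Set.mem_ofPred_eq]
      refine le_trans ?_ (neg_le_abs _)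
      rw [Finset.sum_sub_distrib]
      have hm : ∑ i : Fin d, (1 / 2 + lam / 5) ≤ ∑ i, ∫ y, Real.exp (-(3 / 2 * aCoef (σ i) * y ^ 2))
          ∂gaussianReal 0 (Real.toNNReal (1 / ((1 + 2 * lam) * aCoef (σ i)))) :=
        Finset.sum_le_sum fun i _ => mean_u_tilt (σ i) h0.le h1
      simp only [Finset.sum_const, Finset.card_univ, Fintype.card_fin, nsmul_eq_mul] at hm
      unfold uStat at hx
      linarith
    · rw [div_le_iff₀ (by positivity)]
      nlinarith
  have hsum := prob_add_prob_compl (μ := gibbs (quadPot fun i => (1 + 2 * lam) * aCoef (σ i)))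
    (measurableSet_testSet lam σ)
  have hsum' := congrArg ENNReal.toReal hsum
  rw [ENNReal.toReal_add (measure_ne_top _ _) (measure_ne_top _ _), ENNReal.toReal_one] at hsum'
  linarith

theorem base_coreSet_ge (hd : 20000000 ≤ d) (σ : Fin d → Bool) :
    99 / 100 ≤ (gibbs (quadPot fun i => aCoef (σ i)) (coreSet σ)).toReal := by
  have hd' : (20000000 : ℝ) ≤ d := by exact_mod_cast hd
  have hd0 : (0 : ℝ) < d := by linarith
  have ha : ∀ i, 0 < aCoef (σ i) := fun i => aCoef_pos _
  have := isProbabilityMeasure_gibbs_quadPot _ ha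
  set γ := gibbs (quadPot fun i => aCoef (σ i)) with hγ
  have cheb := gibbs_quadPot_chebyshev (fun i => aCoef (σ i)) ha
    (fun i y => sgn (σ i) * (Real.exp (-y ^ 2) - 31 / 48)) (fun i => by fun_prop)
    (fun i y => abs_sgn_mul_le_one _ _) ((d : ℝ) / 192) (by positivity)
  have mark := gibbs_quadPot_norm (fun i => aCoef (σ i)) ha (100 * d) (by positivity)
  have hA : (γ {x : E d | (d : ℝ) / 64 ≤ tStat σ x}ᶜ).toReal ≤ 2 / 1000 := by
    refine le_trans (ENNReal.toReal_mono (measure_ne_top _ _) (measure_mono ?_)) (cheb.trans ?_)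
    · intro x hx
      simp only [Set.mem_compl_iff, Set.mem_ofPred_eq, not_le] at hx
      simp only [Set.mem_ofPred_eq, mean_t_base]
      refine le_trans ?_ (neg_le_abs _)
      rw [Finset.sum_sub_distrib]
      simp only [Finset.sum_const, Finset.card_univ, Fintype.card_fin, nsmul_eq_mul]
      unfold tStat at hx
      linarith
    · rw [div_le_iff₀ (by positivity)]
      nlinarith
  have hB : (γ {x : E d | ∑ i, x i ^ 2 ≤ 100 * d}ᶜ).toReal ≤ 78 / 10000 := by
    refine le_trans (ENNReal.toReal_mono (measure_ne_top _ _) (measure_mono ?_)) (mark.trans ?_)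
    · intro x hx
      simp only [Set.mem_compl_iff, Set.mem_ofPred_eq, not_le] at hx
      exact hx.le
    · rw [div_le_iff₀ (by positivity)]
      have : ∑ i : Fin d, 1 / aCoef (σ i) ≤ ∑ _i : Fin d, (39 / 50 : ℝ) := by
        refine Finset.sum_le_sum fun i _ => ?_
        rw [div_le_iff₀ (ha i)]
        have := aCoef_ge (σ i)
        linarith
      simp only [Finset.sum_const, Finset.card_univ, Fintype.card_fin, nsmul_eq_mul] at this
      linarith
  have hC : (γ (coreSet σ)ᶜ).toReal ≤ 1 / 100 := by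
    have : (coreSet σ)ᶜ = {x : E d | (d : ℝ) / 64 ≤ tStat σ x}ᶜ ∪
        {x : E d | ∑ i, x i ^ 2 ≤ 100 * d}ᶜ := by
      unfold coreSet
      rw [Set.compl_inter]
    rw [this]
    have h3 := ENNReal.toReal_mono (ENNReal.add_ne_top.2 ⟨measure_ne_top γ _, measure_ne_top γ _⟩)
      (measure_union_le (μ := γ) {x : E d | (d : ℝ) / 64 ≤ tStat σ x}ᶜ
        {x : E d | ∑ i, x i ^ 2 ≤ 100 * d}ᶜ)
    rw [ENNReal.toReal_add (measure_ne_top _ _) (measure_ne_top _ _)] at h3
    linarith
  have hsum := prob_add_prob_compl (μ := γ) (measurableSet_coreSet σ)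
  have hsum' := congrArg ENNReal.toReal hsum
  rw [ENNReal.toReal_add (measure_ne_top _ _) (measure_ne_top _ _), ENNReal.toReal_one] at hsum'
  linarith

theorem pert_testSet_le (hd : 20000000 ≤ d) (σ : Fin d → Bool) {lam : ℝ} (h0 : 0 < lam)
    (hl : 2500 ≤ lam ^ 2 * d) :
    (gibbs (V1 lam σ) (testSet lam σ)).toReal ≤ 5 / 100 := by
  have hd0 : 0 < d := by omega
  have ha : ∀ i, 0 < aCoef (σ i) := fun i => aCoef_pos _
  have := isProbabilityMeasure_gibbs_quadPot _ ha
  have hdom := gibbs_mul_le (V := V1 lam σ) (W := quadPot fun i => aCoef (σ i))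
    (fun x => quadPot_le_V1 h0.le σ x) (coreSet σ) (measurableSet_coreSet σ)
    (fun x hx => V1_eq_quadPot_of_cut σ x (cut_eq_one hd0 σ x hx.1 hx.2)) (testSet lam σ)
    (measurableSet_testSet lam σ)
  have h1 := ENNReal.toReal_mono (measure_ne_top _ _) hdom
  rw [ENNReal.toReal_mul] at h1
  have h2 := base_testSet_le hd0 σ h0 hl
  have h3 := base_coreSet_ge hd σ
  have h4 : 0 ≤ (gibbs (V1 lam σ) (testSet lam σ)).toReal := ENNReal.toReal_nonneg
  nlinarith

end Vale.Agent.P347
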