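import Vale.Agent.P347.Gauss

/-!
# P347: the two potentials attached to a hidden pattern have far apart Gibbs laws
-/

namespace Vale.Agent.P347

open MeasureTheory ProbabilityTheory

variable {d : ℕ}

/-- Domination: if `W ≤ V` everywhere with equality on `core`, then
`π_V(N) π_W(core) ≤ π_W(N)`. -/
theorem gibbs_mul_le {V W : E d → ℝ} (hWV : ∀ x, W x ≤ V x) (core : Set (E d))
    (hcore : MeasurableSet core) (heq : ∀ x ∈ core, V x = W x) (N : Set (E d))
    (hN : MeasurableSet N) : gibbs V N * gibbs W core ≤ gibbs W N := by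
  unfold gibbs
  simp only [Measure.smul_apply, smul_eq_mul, withDensity_apply _ hN, withDensity_apply _ hcore]
  set ZV := ∫⁻ x, ENNReal.ofReal (Real.exp (-V x))
  set ZW := ∫⁻ x, ENNReal.ofReal (Real.exp (-W x))
  have h1 : ∫⁻ x in core, ENNReal.ofReal (Real.exp (-W x)) ≤ ZV := by
    calc ∫⁻ x in core, ENNReal.ofReal (Real.exp (-W x))
        = ∫⁻ x in core, ENNReal.ofReal (Real.exp (-V x)) := by
          refine setLIntegral_congr_fun hcore fun x hx => ?_
          rw [heq x hx]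
      _ ≤ ZV := setLIntegral_le_lintegral _ _
  have h2 : ∫⁻ x in N, ENNReal.ofReal (Real.exp (-V x))
      ≤ ∫⁻ x in N, ENNReal.ofReal (Real.exp (-W x)) := by
    refine lintegral_mono fun x => ENNReal.ofReal_le_ofReal (Real.exp_le_exp.2 ?_)
    linarith [hWV x]
  calc ZV⁻¹ * (∫⁻ x in N, ENNReal.ofReal (Real.exp (-V x))) *
        (ZW⁻¹ * ∫⁻ x in core, ENNReal.ofReal (Real.exp (-W x)))
      = (ZV⁻¹ * ∫⁻ x in core, ENNReal.ofReal (Real.exp (-W x))) *
        (ZW⁻¹ * ∫⁻ x in N, ENNReal.ofReal (Real.exp (-V x))) := by ring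
    _ ≤ (ZV⁻¹ * ZV) * (ZW⁻¹ * ∫⁻ x in N, ENNReal.ofReal (Real.exp (-W x))) := by gcongr
    _ ≤ 1 * (ZW⁻¹ * ∫⁻ x in N, ENNReal.ofReal (Real.exp (-W x))) := by
        gcongr
        exact ENNReal.inv_mul_le_one _
    _ = _ := one_mul _

theorem isProbabilityMeasure_gibbs_quadPot (b : Fin d → ℝ) (hb : ∀ i, 0 < b i) :
    IsProbabilityMeasure (gibbs (quadPot b)) := by
  rw [gibbs_quadPot_eq b hb]
  exact Measure.isProbabilityMeasure_map (by fun_prop)

theorem aCoef_pos (b : Bool) : 0 < aCoef b := by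
  unfold aCoef; split_ifs <;> norm_num

theorem aCoef_ge (b : Bool) : 50 / 39 ≤ aCoef b := by
  unfold aCoef; split_ifs <;> norm_num

theorem sQ_nonneg (σ : Fin d → Bool) (x : E d) : 0 ≤ sQ σ x :=
  Finset.sum_nonneg fun _ _ => mul_nonneg (aCoef_pos _).le (sq_nonneg _)

theorem cut_nonneg (σ : Fin d → Bool) (x : E d) : 0 ≤ cut σ x :=
  mul_nonneg (Real.smoothTransition.nonneg _) (Real.smoothTransition.nonneg _)

theorem cut_le_one (σ : Fin d → Bool) (x : E d) : cut σ x ≤ 1 :=
  mul_le_one₀ (Real.smoothTransition.le_one _) (Real.smoothTransition.nonneg _)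
    (Real.smoothTransition.le_one _)

theorem cut_eq_zero (hd : 0 < d) (σ : Fin d → Bool) (x : E d) (h : tStat σ x ≤ d / 96) :
    cut σ x = 0 := by
  unfold cut
  have hd' : (0 : ℝ) < d := by exact_mod_cast hd
  rw [Real.smoothTransition.zero_of_nonpos, zero_mul]
  have : 192 * tStat σ x / d ≤ 2 := by
    rw [div_le_iff₀ hd']
    linarith
  linarith

theorem cut_eq_one (hd : 0 < d) (σ : Fin d → Bool) (x : E d) (h : (d : ℝ) / 64 ≤ tStat σ x)
    (h' : ∑ i, x i ^ 2 ≤ 100 * d) : cut σ x = 1 := by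
  unfold cut
  have hd' : (0 : ℝ) < d := by exact_mod_cast hd
  rw [Real.smoothTransition.one_of_one_le, Real.smoothTransition.one_of_one_le, one_mul]
  · have : (∑ i, x i ^ 2) / (100 * d) ≤ 1 := by
      rw [div_le_iff₀ (by positivity)]
      linarith
    linarith
  · have : 3 ≤ 192 * tStat σ x / d := by
      rw [le_div_iff₀ hd']
      linarith
    linarith

theorem V0_eq_quadPot (lam : ℝ) (σ : Fin d → Bool) :
    V0 lam σ = quadPot fun i => (1 + 2 * lam) * aCoef (σ i) := by
  funext x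
  unfold V0 quadPot sQ
  simp only [mul_assoc, ← Finset.mul_sum]
  ring

theorem quadPot_le_V1 {lam : ℝ} (hlam : 0 ≤ lam) (σ : Fin d → Bool) (x : E d) :
    quadPot (fun i => aCoef (σ i)) x ≤ V1 lam σ x := by
  have h1 : quadPot (fun i => aCoef (σ i)) x = 1 / 2 * sQ σ x := rfl
  rw [h1]
  unfold V1
  have := mul_nonneg hlam (mul_nonneg (sQ_nonneg σ x) (sub_nonneg.2 (cut_le_one σ x)))
  nlinarith

theorem V1_eq_quadPot_of_cut {lam : ℝ} (σ : Fin d → Bool) (x : E d) (h : cut σ x = 1) :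
    V1 lam σ x = quadPot (fun i => aCoef (σ i)) x := by
  have h1 : quadPot (fun i => aCoef (σ i)) x = 1 / 2 * sQ σ x := rfl
  rw [h1]
  unfold V1
  rw [h]
  ring

theorem continuous_tStat (σ : Fin d → Bool) : Continuous (tStat σ) := by
  unfold tStat
  fun_prop

theorem continuous_uStat (σ : Fin d → Bool) : Continuous (uStat σ) := by
  unfold uStat
  fun_prop

/-- off the hidden set `{d/96 ≤ tStat}`, the two potentials have the same value -/
theorem V0_eq_V1 (hd : 0 < d) (lam : ℝ) (σ : Fin d → Bool) (x : E d)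
    (h : x ∉ {x : E d | (d : ℝ) / 96 ≤ tStat σ x}) : V0 lam σ x = V1 lam σ x := by
  simp only [Set.mem_ofPred_eq, not_le] at h
  unfold V0 V1
  rw [cut_eq_zero hd σ x h.le]
  ring

/-- off the hidden set `{d/96 ≤ tStat}`, the two potentials have the same gradient -/
theorem gradient_V0_eq_V1 (hd : 0 < d) (lam : ℝ) (σ : Fin d → Bool) (x : E d)
    (h : x ∉ {x : E d | (d : ℝ) / 96 ≤ tStat σ x}) :
    gradient (V0 lam σ) x = gradient (V1 lam σ) x := by
  have hopen : IsOpen {x : E d | (d : ℝ) / 96 ≤ tStat σ x}ᶜ :=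
    (isClosed_le continuous_const (continuous_tStat σ)).isOpen_compl
  have hev : V0 lam σ =ᶠ[nhds x] V1 lam σ := by
    filter_upwards [hopen.mem_nhds h] with y hy
    exact V0_eq_V1 hd lam σ y hy
  unfold gradient
  rw [hev.fderiv_eq]

end Vale.Agent.P347
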